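import Mathlib

/-!
# Sharp kinetic Lieb-Thirring inequality at `γ = 1`: definitions.

`Ω` solves the shifted Lyapunov equation `(F - n) Ω + Ω (F - n) = X`.
-/

open Matrix

namespace Vale.Agent.Lib.P371.Sharp

variable {d : ℕ}

/-- Real square matrices. -/
abbrev Mat (d : ℕ) := Matrix (Fin d) (Fin d) ℝ

/-- Real vectors. -/
abbrev Vec (d : ℕ) := Fin d → ℝ

/-- The Hilbert-Schmidt pairing. -/
def hs (A B : Mat d) : ℝ := ∑ i, ∑ j, A i j * B i j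

/-- `F` is symmetric with `ε ≤ F ≤ 1 - ε` as quadratic forms. -/
def QBound (ε : ℝ) (F : Mat d) : Prop :=
  F.IsSymm ∧ ∀ v : Vec d, ε * (v ⬝ᵥ v) ≤ v ⬝ᵥ (F *ᵥ v) ∧ v ⬝ᵥ (F *ᵥ v) ≤ (1 - ε) * (v ⬝ᵥ v)

/-- The shifted Lyapunov operator `Ω ↦ (F - n) Ω + Ω (F - n)`. -/
def lyap (F : Mat d) (n : ℤ) (Ω : Mat d) : Mat d :=
  (F - (n : ℝ) • (1 : Mat d)) * Ω + Ω * (F - (n : ℝ) • (1 : Mat d))

open Classical in
/-- A solution of the shifted Lyapunov equation (junk value `0` if there is none). -/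
noncomputable def sol (F : Mat d) (n : ℤ) (X : Mat d) : Mat d :=
  if h : ∃ Ω, lyap F n Ω = X then h.choose else 0

/-- Symmetric partial sums of `∑ₙ 1/(A-2n)` (which converge to `(π/2) cot (π A / 2)`). -/
noncomputable def SM (M : ℕ) (A : ℝ) : ℝ :=
  ∑ n ∈ Finset.Icc (-(M : ℤ)) (M : ℤ), 1 / (A - 2 * (n : ℝ))

/-- Symmetric partial sums of `∑ₙ 1/((A-2n)(B-2n))`. -/
noncomputable def DM (M : ℕ) (A B : ℝ) : ℝ :=
  ∑ n ∈ Finset.Icc (-(M : ℤ)) (M : ℤ), 1 / ((A - 2 * (n : ℝ)) * (B - 2 * (n : ℝ)))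

end Vale.Agent.Lib.P371.Sharp
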