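import Mathlib
import Vale.Agent.Lib.P371.Sharp.Defs

/-!
# Sharp kinetic Lieb-Thirring: the kernel bound

Uniform lower bound for `DM M A B - SM M A * SM M B` from the cotangent series and
`sin u / u ≥ cos u` on `|u| < π`.
-/

open Filter Topology Finset

namespace Vale.Agent.Lib.P371.Sharp

/-- Partial sums of the cotangent series, real form. -/
theorem tendsto_cotPartial {x : ℝ} (h0 : 0 < x) (h1 : x < 1) :
    Tendsto (fun n : ℕ => ∑ j ∈ range n, (1 / (x - ((j : ℝ) + 1)) + 1 / (x + ((j : ℝ) + 1))))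
      atTop (𝓝 (Real.pi * (Real.cos (Real.pi * x) / Real.sin (Real.pi * x)) - 1 / x)) := by
  have hx : (x : ℂ) ∈ Complex.integerComplement := by
    rw [Complex.mem_integerComplement_iff]
    rintro ⟨n, hn⟩
    have h2 : (n : ℝ) = x := by exact_mod_cast hn
    have h3 : (0 : ℝ) < n := by linarith
    have h4 : (n : ℝ) < 1 := by linarith
    have h5 : 0 < n := by exact_mod_cast h3
    have h6 : n < 1 := by exact_mod_cast h4
    omega
  have h := tendsto_logDeriv_euler_cot_sub hx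
  have hlim : (Real.pi : ℂ) * Complex.cot ((Real.pi : ℂ) * x) - 1 / (x : ℂ) =
      ((Real.pi * (Real.cos (Real.pi * x) / Real.sin (Real.pi * x)) - 1 / x : ℝ) : ℂ) := by
    push_cast
    rw [Complex.cot]
  have hsum : ∀ n : ℕ, ∑ j ∈ range n, cotTerm (x : ℂ) j =
      ((∑ j ∈ range n, (1 / (x - ((j : ℝ) + 1)) + 1 / (x + ((j : ℝ) + 1))) : ℝ) : ℂ) := by
    intro n
    push_cast
    rfl
  simp_rw [hsum] at h
  rw [hlim] at h
  have h2 := (Complex.continuous_re.tendsto _).comp h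
  simpa only [Function.comp_def, Complex.ofReal_re] using h2

/-- Symmetric interval sums. -/
theorem sum_Icc_succ (f : ℤ → ℝ) (M : ℕ) :
    ∑ n ∈ Icc (-((M + 1 : ℕ) : ℤ)) ((M + 1 : ℕ) : ℤ), f n =
      ∑ n ∈ Icc (-(M : ℤ)) (M : ℤ), f n + f ((M : ℤ) + 1) + f (-((M : ℤ) + 1)) := by
  have h : Icc (-((M + 1 : ℕ) : ℤ)) ((M + 1 : ℕ) : ℤ) =
      insert ((M : ℤ) + 1) (insert (-((M : ℤ) + 1)) (Icc (-(M : ℤ)) (M : ℤ))) := by
    ext n
    simp only [Finset.mem_Icc, Finset.mem_insert]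
    push_cast
    omega
  rw [h, Finset.sum_insert, Finset.sum_insert]
  · ring
  · simp only [Finset.mem_Icc]; omega
  · simp only [Finset.mem_insert, Finset.mem_Icc]; omega

/-- The cotangent partial sums. -/
noncomputable def gP (x : ℝ) (n : ℕ) : ℝ :=
  ∑ j ∈ range n, (1 / (x - ((j : ℝ) + 1)) + 1 / (x + ((j : ℝ) + 1)))

theorem SM_eq (M : ℕ) (x : ℝ) : SM M (2 * x) = 1 / 2 * (1 / x + gP x M) := by
  have key : ∀ n : ℤ, 1 / (2 * x - 2 * (n : ℝ)) = 1 / 2 * (1 / (x - (n : ℝ))) := by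
    intro n
    rw [← mul_sub, one_div, one_div, one_div, mul_inv]
  induction M with
  | zero =>
    simp [SM, gP, key]
  | succ M IH =>
    have e1 : SM (M + 1) (2 * x) = SM M (2 * x) + 1 / (2 * x - 2 * (((M : ℤ) + 1 : ℤ) : ℝ)) +
        1 / (2 * x - 2 * ((-((M : ℤ) + 1) : ℤ) : ℝ)) := by
      unfold SM
      exact sum_Icc_succ (fun n : ℤ => 1 / (2 * x - 2 * (n : ℝ))) M
    rw [e1, IH, key, key]
    unfold gP
    rw [Finset.sum_range_succ]
    push_cast
    have : x - -((M : ℝ) + 1) = x + ((M : ℝ) + 1) := by ring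
    rw [this]
    ring

/-- One term of the cotangent series for `j ≥ 1`. -/
theorem cot_term_bound {x : ℝ} (h0 : 0 < x) (h1 : x < 1) (j : ℕ) (hj : 1 ≤ j) :
    |1 / (x - ((j : ℝ) + 1)) + 1 / (x + ((j : ℝ) + 1))| ≤ 2 * (1 / (j : ℝ) - 1 / ((j : ℝ) + 1)) := by
  have hj' : (1 : ℝ) ≤ j := by exact_mod_cast hj
  have h2 : x - ((j : ℝ) + 1) < 0 := by linarith
  have h3 : 0 < x + ((j : ℝ) + 1) := by linarith
  have e : 1 / (x - ((j : ℝ) + 1)) + 1 / (x + ((j : ℝ) + 1)) =
      -(2 * x / ((((j : ℝ) + 1) - x) * ((j : ℝ) + 1 + x))) := by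
    have h4 : ((j : ℝ) + 1) - x ≠ 0 := by linarith
    have h5 : x - ((j : ℝ) + 1) ≠ 0 := h2.ne
    have h6 : (j : ℝ) + 1 + x ≠ 0 := by linarith
    field_simp
    ring
  have hpos : 0 < (((j : ℝ) + 1) - x) * ((j : ℝ) + 1 + x) := by
    apply mul_pos <;> linarith
  rw [e, abs_neg, abs_of_nonneg (by positivity)]
  have e2 : 2 * (1 / (j : ℝ) - 1 / ((j : ℝ) + 1)) = 2 / ((j : ℝ) * ((j : ℝ) + 1)) := by
    field_simp
    ring
  rw [e2, div_le_div_iff₀ hpos (by positivity)]
  have h7 : (j : ℝ) * ((j : ℝ) + 1) ≤ (((j : ℝ) + 1) - x) * ((j : ℝ) + 1 + x) := by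
    nlinarith
  nlinarith

theorem gP_tail {x : ℝ} (h0 : 0 < x) (h1 : x < 1) (M : ℕ) (hM : 1 ≤ M) (k : ℕ) :
    |gP x (M + k) - gP x M| ≤ 2 * (1 / (M : ℝ) - 1 / ((M : ℝ) + k)) := by
  have hM' : (1 : ℝ) ≤ M := by exact_mod_cast hM
  induction k with
  | zero => simp
  | succ k IH =>
    have e : gP x (M + (k + 1)) = gP x (M + k) +
        (1 / (x - (((M + k : ℕ) : ℝ) + 1)) + 1 / (x + (((M + k : ℕ) : ℝ) + 1))) := by
      unfold gP
      rw [← add_assoc, Finset.sum_range_succ]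
    have h2 := cot_term_bound h0 h1 (M + k) (by omega)
    rw [e]
    have h3 : |gP x (M + k) + (1 / (x - (((M + k : ℕ) : ℝ) + 1)) +
        1 / (x + (((M + k : ℕ) : ℝ) + 1))) - gP x M| ≤
        |gP x (M + k) - gP x M| + |1 / (x - (((M + k : ℕ) : ℝ) + 1)) +
          1 / (x + (((M + k : ℕ) : ℝ) + 1))| := by
      have := abs_add_le (gP x (M + k) - gP x M) (1 / (x - (((M + k : ℕ) : ℝ) + 1)) +
          1 / (x + (((M + k : ℕ) : ℝ) + 1)))
      calc _ = |gP x (M + k) - gP x M + (1 / (x - (((M + k : ℕ) : ℝ) + 1)) +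
          1 / (x + (((M + k : ℕ) : ℝ) + 1)))| := by congr 1; ring
        _ ≤ _ := this
    have e3 : (((M + k : ℕ) : ℝ)) = (M : ℝ) + k := by push_cast; ring
    rw [e3] at h2 h3 ⊢
    refine h3.trans ?_
    have e4 : ((k + 1 : ℕ) : ℝ) = (k : ℝ) + 1 := by push_cast; ring
    rw [e4]
    have e5 : (M : ℝ) + ((k : ℝ) + 1) = (M : ℝ) + k + 1 := by ring
    rw [e5]
    linarith

/-- The cotangent in the normalisation of the problem. -/
noncomputable def SS (x : ℝ) : ℝ :=
  Real.pi / 2 * (Real.cos (Real.pi * x) / Real.sin (Real.pi * x))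

/-- `|S_M(2x) - S(x)| ≤ 1/M`. -/
theorem SM_sub_SS {x : ℝ} (h0 : 0 < x) (h1 : x < 1) (M : ℕ) (hM : 1 ≤ M) :
    |SM M (2 * x) - SS x| ≤ 1 / (M : ℝ) := by
  have hlim := tendsto_cotPartial h0 h1
  have hM' : (0 : ℝ) < M := by exact_mod_cast hM
  have hle : |Real.pi * (Real.cos (Real.pi * x) / Real.sin (Real.pi * x)) - 1 / x - gP x M| ≤
      2 / (M : ℝ) := by
    have h2 : Tendsto (fun n : ℕ => |gP x n - gP x M|) atTop
        (𝓝 |Real.pi * (Real.cos (Real.pi * x) / Real.sin (Real.pi * x)) - 1 / x - gP x M|) :=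
      (hlim.sub_const _).abs
    refine le_of_tendsto h2 ?_
    filter_upwards [eventually_ge_atTop M] with n hn
    obtain ⟨k, rfl⟩ := Nat.exists_eq_add_of_le hn
    have h3 := gP_tail h0 h1 M hM k
    have h4 : (0 : ℝ) ≤ 1 / ((M : ℝ) + k) := by positivity
    have h5 : 2 * (1 / (M : ℝ) - 1 / ((M : ℝ) + k)) ≤ 2 / (M : ℝ) := by
      have : 2 / (M : ℝ) = 2 * (1 / (M : ℝ)) := by ring
      rw [this]
      linarith
    exact h3.trans h5
  rw [SM_eq]
  have e : 1 / 2 * (1 / x + gP x M) - SS x =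
      -(1 / 2) * (Real.pi * (Real.cos (Real.pi * x) / Real.sin (Real.pi * x)) - 1 / x - gP x M) := by
    unfold SS
    ring
  rw [e, abs_mul]
  have : |(-(1 / 2) : ℝ)| = 1 / 2 := by norm_num
  rw [this]
  have e2 : 2 / (M : ℝ) = 2 * (1 / (M : ℝ)) := by ring
  rw [e2] at hle
  linarith

/-- `DM` is the divided difference of `SM`. -/
theorem DM_mul (M : ℕ) {A B : ℝ} (hA0 : 0 < A) (hA2 : A < 2) (hB0 : 0 < B) (hB2 : B < 2) :
    DM M A B * (B - A) = SM M A - SM M B := by
  unfold DM SM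
  rw [Finset.sum_mul, ← Finset.sum_sub_distrib]
  apply Finset.sum_congr rfl
  intro n _
  have hne : ∀ C : ℝ, 0 < C → C < 2 → C - 2 * (n : ℝ) ≠ 0 := by
    intro C h0 h2 hc
    have h3 : C = 2 * (n : ℝ) := by linarith
    have h4 : (0 : ℝ) < n := by linarith
    have h5 : (n : ℝ) < 1 := by linarith
    have h6 : 0 < n := by exact_mod_cast h4
    have h7 : n < 1 := by exact_mod_cast h5
    omega
  have h1 := hne A hA0 hA2
  have h2 := hne B hB0 hB2
  field_simp
  ring

/-- Each term of `DM` is nonnegative and the tail is small. -/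
theorem DM_tail {A B : ℝ} (hA0 : 0 < A) (hA2 : A < 2) (hB0 : 0 < B) (hB2 : B < 2) (M : ℕ)
    (hM : 2 ≤ M) (k : ℕ) :
    DM (M + k) A B ≤ DM M A B + 1 / 2 * (1 / ((M : ℝ) - 1) - 1 / ((M : ℝ) + k - 1)) := by
  have hM' : (2 : ℝ) ≤ M := by exact_mod_cast hM
  induction k with
  | zero => simp
  | succ k IH =>
    have e1 : DM (M + (k + 1)) A B = DM (M + k) A B +
        1 / ((A - 2 * (((((M + k : ℕ) : ℤ) + 1 : ℤ)) : ℝ)) * (B - 2 * (((((M + k : ℕ) : ℤ) + 1 : ℤ)) : ℝ))) +
        1 / ((A - 2 * ((-(((M + k : ℕ) : ℤ) + 1) : ℤ) : ℝ)) * (B - 2 * ((-(((M + k : ℕ) : ℤ) + 1) : ℤ) : ℝ))) := by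
      unfold DM
      exact sum_Icc_succ (fun n : ℤ => 1 / ((A - 2 * (n : ℝ)) * (B - 2 * (n : ℝ)))) (M + k)
    rw [e1]
    push_cast
    set r : ℝ := (M : ℝ) + k with hr
    have hr2 : 2 ≤ r := by
      have : (0 : ℝ) ≤ k := by positivity
      linarith
    have t1 : 1 / ((A - 2 * (r + 1)) * (B - 2 * (r + 1))) ≤ 1 / (4 * r ^ 2) := by
      have e : (A - 2 * (r + 1)) * (B - 2 * (r + 1)) = (2 * (r + 1) - A) * (2 * (r + 1) - B) := by
        ring
      rw [e]
      apply one_div_le_one_div_of_le (by positivity)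
      nlinarith
    have t2 : 1 / ((A - 2 * -(r + 1)) * (B - 2 * -(r + 1))) ≤ 1 / (4 * r ^ 2) := by
      apply one_div_le_one_div_of_le (by positivity)
      nlinarith
    have t3 : 1 / (4 * r ^ 2) + 1 / (4 * r ^ 2) ≤ 1 / 2 * (1 / (r - 1) - 1 / (r + 1 - 1)) := by
      have hr1 : 0 < r - 1 := by linarith
      have e : r + 1 - 1 = r := by ring
      rw [e]
      have e2 : 1 / (r - 1) - 1 / r = 1 / (r * (r - 1)) := by
        field_simp
        ring
      rw [e2]
      have e3 : 1 / (4 * r ^ 2) + 1 / (4 * r ^ 2) = 1 / 2 * (1 / r ^ 2) := by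
        field_simp
        ring
      rw [e3]
      apply mul_le_mul_of_nonneg_left _ (by norm_num)
      apply one_div_le_one_div_of_le (by positivity)
      nlinarith
    have e4 : (M : ℝ) + ((k : ℝ) + 1) - 1 = r + 1 - 1 := by rw [hr]; ring
    have hIH := IH
    have e5 : ((M + k : ℕ) : ℝ) = r := by rw [hr]; push_cast; ring
    simp only [e5] at *
    rw [e4]
    have hbase : DM (M + k) A B ≤ DM M A B + 1 / 2 * (1 / ((M : ℝ) - 1) - 1 / (r - 1)) := hIH
    linarith

/-- Limit of `DM` for `A ≠ B`, and the lower bound with the tail. -/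
theorem DM_lower {x y : ℝ} (hx0 : 0 < x) (hx1 : x < 1) (hy0 : 0 < y) (hy1 : y < 1) (hxy : x ≠ y)
    (M : ℕ) (hM : 2 ≤ M) :
    (SS x - SS y) / (2 * y - 2 * x) - 1 / (2 * ((M : ℝ) - 1)) ≤ DM M (2 * x) (2 * y) := by
  have hM' : (2 : ℝ) ≤ M := by exact_mod_cast hM
  have hdiff : 2 * y - 2 * x ≠ 0 := by
    intro h
    apply hxy
    linarith
  -- the limit of `SM`
  have hlimS : ∀ z : ℝ, 0 < z → z < 1 → Tendsto (fun n : ℕ => SM n (2 * z)) atTop (𝓝 (SS z)) := by
    intro z h0 h1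
    rw [tendsto_iff_dist_tendsto_zero]
    have h2 : Tendsto (fun n : ℕ => 1 / (n : ℝ)) atTop (𝓝 0) :=
      tendsto_one_div_atTop_nhds_zero_nat
    refine squeeze_zero' (Eventually.of_forall fun _ => dist_nonneg) ?_ h2
    filter_upwards [eventually_ge_atTop 1] with n hn
    rw [Real.dist_eq]
    exact SM_sub_SS h0 h1 n hn
  have hlimD : Tendsto (fun n : ℕ => DM n (2 * x) (2 * y)) atTop
      (𝓝 ((SS x - SS y) / (2 * y - 2 * x))) := by
    have h2 := ((hlimS x hx0 hx1).sub (hlimS y hy0 hy1)).div_const (2 * y - 2 * x)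
    refine h2.congr ?_
    intro n
    rw [← DM_mul n (by linarith) (by linarith) (by linarith) (by linarith)]
    field_simp
  have hle : (SS x - SS y) / (2 * y - 2 * x) ≤ DM M (2 * x) (2 * y) + 1 / (2 * ((M : ℝ) - 1)) := by
    refine le_of_tendsto hlimD ?_
    filter_upwards [eventually_ge_atTop M] with n hn
    obtain ⟨k, rfl⟩ := Nat.exists_eq_add_of_le hn
    have h3 := DM_tail (A := 2 * x) (B := 2 * y) (by linarith) (by linarith) (by linarith)
      (by linarith) M hM k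
    have h4 : 0 ≤ 1 / ((M : ℝ) + k - 1) := by
      have : (0 : ℝ) ≤ k := by positivity
      apply div_nonneg (by norm_num)
      linarith
    have e : 1 / (2 * ((M : ℝ) - 1)) = 1 / 2 * (1 / ((M : ℝ) - 1)) := by
      have : (M : ℝ) - 1 ≠ 0 := by linarith
      field_simp
    rw [e]
    nlinarith
  linarith

/-- `cos u ≤ sin u / u` for `0 < |u| < π`. -/
theorem cos_le_sinc {u : ℝ} (hu : u ≠ 0) (hu1 : |u| < Real.pi) : Real.cos u ≤ Real.sin u / u := by
  have pos : ∀ v : ℝ, 0 < v → v < Real.pi → Real.cos v ≤ Real.sin v / v := by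
    intro v h0 h1
    rw [le_div_iff₀ h0]
    by_cases h2 : v < Real.pi / 2
    · have h3 := Real.lt_tan h0 h2
      have hc : 0 < Real.cos v := Real.cos_pos_of_mem_Ioo ⟨by linarith, h2⟩
      rw [Real.tan_eq_sin_div_cos, lt_div_iff₀ hc] at h3
      linarith
    · push Not at h2
      have hc : Real.cos v ≤ 0 :=
        Real.cos_nonpos_of_pi_div_two_le_of_le h2 (by linarith [Real.pi_pos])
      have hs : 0 < Real.sin v := Real.sin_pos_of_pos_of_lt_pi h0 h1
      nlinarith
  rcases lt_or_gt_of_ne hu with h | h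
  · have h1 := pos (-u) (by linarith) (by rw [abs_of_neg h] at hu1; exact hu1)
    rw [Real.cos_neg, Real.sin_neg, neg_div_neg_eq] at h1
    exact h1
  · exact pos u h (by rwa [abs_of_pos h] at hu1)

/-- The limit inequality for `x ≠ y`. -/
theorem limit_ineq {x y : ℝ} (hx0 : 0 < x) (hx1 : x < 1) (hy0 : 0 < y) (hy1 : y < 1)
    (hxy : x ≠ y) :
    Real.pi ^ 2 / 4 ≤ (SS x - SS y) / (2 * y - 2 * x) - SS x * SS y := by
  have hpi := Real.pi_pos
  set P := Real.pi * x with hP
  set Q := Real.pi * y with hQ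
  have hP0 : 0 < P := by positivity
  have hQ0 : 0 < Q := by positivity
  have hP1 : P < Real.pi := by rw [hP]; nlinarith
  have hQ1 : Q < Real.pi := by rw [hQ]; nlinarith
  have hsP : 0 < Real.sin P := Real.sin_pos_of_pos_of_lt_pi hP0 hP1
  have hsQ : 0 < Real.sin Q := Real.sin_pos_of_pos_of_lt_pi hQ0 hQ1
  set u := Q - P with hu
  have hu0 : u ≠ 0 := by
    intro h
    apply hxy
    have : Real.pi * (y - x) = 0 := by rw [mul_sub]; linarith
    have h2 : y - x = 0 := by
      rcases mul_eq_zero.1 this with h | h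
      · exact absurd h hpi.ne'
      · exact h
    linarith
  have hu1 : |u| < Real.pi := by
    rw [abs_lt]
    constructor <;> linarith
  have hsinc := cos_le_sinc hu0 hu1
  have hsin : Real.sin u = Real.sin Q * Real.cos P - Real.cos Q * Real.sin P := Real.sin_sub _ _
  have hcos : Real.cos u = Real.cos Q * Real.cos P + Real.sin Q * Real.sin P := Real.cos_sub _ _
  have hyx : 2 * y - 2 * x = 2 * u / Real.pi := by
    rw [hu, hQ, hP]
    field_simp
  have hSx : SS x = Real.pi / 2 * (Real.cos P / Real.sin P) := rfl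
  have hSy : SS y = Real.pi / 2 * (Real.cos Q / Real.sin Q) := rfl
  have e : (SS x - SS y) / (2 * y - 2 * x) =
      Real.pi ^ 2 / 4 * ((Real.sin u / u) / (Real.sin P * Real.sin Q)) := by
    rw [hSx, hSy, hyx, hsin]
    field_simp
    ring
  have e2 : SS x * SS y = Real.pi ^ 2 / 4 * ((Real.cos P * Real.cos Q) /
      (Real.sin P * Real.sin Q)) := by
    rw [hSx, hSy]
    field_simp
    ring
  rw [e, e2, ← mul_sub, ← sub_div]
  have hss : 0 < Real.sin P * Real.sin Q := mul_pos hsP hsQ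
  have h3 : 1 ≤ (Real.sin u / u - Real.cos P * Real.cos Q) / (Real.sin P * Real.sin Q) := by
    rw [le_div_iff₀ hss]
    nlinarith
  have h4 : 0 < Real.pi ^ 2 / 4 := by positivity
  nlinarith

/-- The bound for `A ≠ B`. -/
theorem kappa_ne {ε δ : ℝ} (hε : 0 < ε) (hδ : 0 < δ) :
    ∃ M₀ : ℕ, ∀ M ≥ M₀, ∀ x y : ℝ, ε ≤ x → x ≤ 1 - ε → ε ≤ y → y ≤ 1 - ε → x ≠ y →
      Real.pi ^ 2 / 4 - δ ≤ DM M (2 * x) (2 * y) - SM M (2 * x) * SM M (2 * y) := by
  -- bound for `SS` on the compact interval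
  have hcont : ContinuousOn SS (Set.Icc ε (1 - ε)) := by
    unfold SS
    apply ContinuousOn.mul continuousOn_const
    apply ContinuousOn.div (by fun_prop) (by fun_prop)
    intro z hz
    have hpi := Real.pi_pos
    apply (Real.sin_pos_of_pos_of_lt_pi _ _).ne'
    · have : 0 < z := by linarith [hz.1]
      positivity
    · have : z < 1 := by linarith [hz.2]
      nlinarith
  obtain ⟨K, hK⟩ := isCompact_Icc.exists_bound_of_continuousOn hcont
  set K' : ℝ := max K 0 with hK'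
  have hK'0 : 0 ≤ K' := le_max_right _ _
  have hKb : ∀ z ∈ Set.Icc ε (1 - ε), |SS z| ≤ K' := fun z hz =>
    (by simpa using hK z hz : |SS z| ≤ K).trans (le_max_left _ _)
  -- choice of `M₀`
  obtain ⟨M₁, hM₁⟩ := exists_nat_gt ((1 + (2 * K' + 1)) / δ)
  refine ⟨M₁ + 2, ?_⟩
  intro M hM x y hx0 hx1 hy0 hy1 hxy
  have hM2 : 2 ≤ M := by omega
  have hMr : ((M₁ : ℝ) + 2) ≤ M := by exact_mod_cast hM
  have hMpos : (0 : ℝ) < M := by linarith [show (0 : ℝ) ≤ M₁ by positivity]
  have hx0' : 0 < x := by linarith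
  have hx1' : x < 1 := by linarith
  have hy0' : 0 < y := by linarith
  have hy1' : y < 1 := by linarith
  have h1 := DM_lower hx0' hx1' hy0' hy1' hxy M hM2
  have h2 := limit_ineq hx0' hx1' hy0' hy1' hxy
  have h3 := SM_sub_SS hx0' hx1' M (by omega)
  have h4 := SM_sub_SS hy0' hy1' M (by omega)
  have h5 := hKb x ⟨hx0, hx1⟩
  have h6 := hKb y ⟨hy0, hy1⟩
  set a := SM M (2 * x)
  set b := SM M (2 * y)
  set e := 1 / (M : ℝ) with he
  have he1 : e ≤ 1 := by
    rw [he, div_le_one hMpos]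
    linarith [show (0 : ℝ) ≤ M₁ by positivity]
  have he0 : 0 ≤ e := by positivity
  have hprod : a * b ≤ SS x * SS y + (2 * K' + 1) * e := by
    have h7 := abs_le.1 h3
    have h8 := abs_le.1 h4
    have h9 := abs_le.1 h5
    have h10 := abs_le.1 h6
    have e1 : a * b - SS x * SS y = (a - SS x) * (b - SS y) + (a - SS x) * SS y +
        SS x * (b - SS y) := by ring
    have t1 : (a - SS x) * (b - SS y) ≤ e * e := by
      have := abs_mul (a - SS x) (b - SS y)
      have h11 : |(a - SS x) * (b - SS y)| ≤ e * e := by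
        rw [this]
        exact mul_le_mul h3 h4 (abs_nonneg _) he0
      exact (le_abs_self _).trans h11
    have t2 : (a - SS x) * SS y ≤ e * K' := by
      have := abs_mul (a - SS x) (SS y)
      have h11 : |(a - SS x) * SS y| ≤ e * K' := by
        rw [this]
        exact mul_le_mul h3 h6 (abs_nonneg _) he0
      exact (le_abs_self _).trans h11
    have t3 : SS x * (b - SS y) ≤ K' * e := by
      have := abs_mul (SS x) (b - SS y)
      have h11 : |SS x * (b - SS y)| ≤ K' * e := by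
        rw [this]
        exact mul_le_mul h5 h4 (abs_nonneg _) hK'0
      exact (le_abs_self _).trans h11
    have t4 : e * e ≤ e := by nlinarith
    nlinarith
  have htail : 1 / (2 * ((M : ℝ) - 1)) ≤ e := by
    rw [he]
    apply one_div_le_one_div_of_le hMpos
    have : (2 : ℝ) ≤ M := by exact_mod_cast hM2
    linarith
  have hsmall : (1 + (2 * K' + 1)) * e ≤ δ := by
    have h7 : (1 + (2 * K' + 1)) / δ < M := by
      linarith [show (0 : ℝ) ≤ M₁ by positivity]
    rw [div_lt_iff₀ hδ] at h7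
    rw [he, mul_one_div, div_le_iff₀ hMpos]
    linarith
  nlinarith

/-- S1: uniform lower bound for the kernel, from the cotangent series and `sin u / u ≥ cos u`. -/
theorem kappa_lower {ε δ : ℝ} (hε : 0 < ε) (hδ : 0 < δ) :
    ∃ M₀ : ℕ, ∀ M ≥ M₀, ∀ A B : ℝ, 2 * ε ≤ A → A ≤ 2 - 2 * ε → 2 * ε ≤ B → B ≤ 2 - 2 * ε →
      Real.pi ^ 2 / 4 - δ ≤ DM M A B - SM M A * SM M B := by
  obtain ⟨M₀, hM₀⟩ := kappa_ne (ε := ε / 2) (by positivity) hδ
  refine ⟨M₀, ?_⟩
  intro M hM A B hA0 hA1 hB0 hB1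
  have key : ∀ C : ℝ, ε ≤ C → C ≤ 2 - ε → C ≠ A →
      Real.pi ^ 2 / 4 - δ ≤ DM M A C - SM M A * SM M C := by
    intro C hC0 hC1 hne
    have := hM₀ M hM (A / 2) (C / 2) (by linarith) (by linarith) (by linarith) (by linarith)
      (by intro h; apply hne; linarith)
    have e1 : 2 * (A / 2) = A := by ring
    have e2 : 2 * (C / 2) = C := by ring
    rwa [e1, e2] at this
  by_cases hAB : B = A
  · subst hAB
    -- continuity in the second variable
    have hne : ∀ (n : ℤ), B - 2 * (n : ℝ) ≠ 0 := by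
      intro n hc
      have h3 : B = 2 * (n : ℝ) := by linarith
      have h4 : (0 : ℝ) < n := by linarith
      have h5 : (n : ℝ) < 1 := by linarith
      have h6 : 0 < n := by exact_mod_cast h4
      have h7 : n < 1 := by exact_mod_cast h5
      omega
    have hcont : ContinuousAt (fun C : ℝ => DM M B C - SM M B * SM M C) B := by
      unfold DM SM
      apply ContinuousAt.sub
      · refine tendsto_finset_sum _ fun n _ => ?_
        apply ContinuousAt.div continuousAt_const (by fun_prop)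
        exact mul_ne_zero (hne n) (hne n)
      · apply ContinuousAt.mul continuousAt_const
        refine tendsto_finset_sum _ fun n _ => ?_
        apply ContinuousAt.div continuousAt_const (by fun_prop)
        exact hne n
    have htend : Tendsto (fun C : ℝ => DM M B C - SM M B * SM M C) (𝓝[≠] B)
        (𝓝 (DM M B B - SM M B * SM M B)) := hcont.tendsto.mono_left nhdsWithin_le_nhds
    refine ge_of_tendsto htend ?_
    have hIoo : Set.Ioo ε (2 - ε) ∈ 𝓝 B := Ioo_mem_nhds (by linarith) (by linarith)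
    filter_upwards [mem_nhdsWithin_of_mem_nhds hIoo, self_mem_nhdsWithin] with C hC hCne
    exact key C hC.1.le hC.2.le hCne
  · exact key B (by linarith) (by linarith) hAB

end Vale.Agent.Lib.P371.Sharp
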