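import Mathlib
import Vale.Agent.Lib.P371.Sharp.Trig

/-!
# Sharp kinetic Lieb-Thirring: the exact limit of the kernel

`DM M A B - SM M A * SM M B` converges uniformly to
`(π²/4) (1 + (sinc u - cos u) / (sin (π A/2) sin (π B/2)))`, `u = π (A-B)/2`.
-/

open Filter Topology Finset

namespace Vale.Agent.Lib.P371.Sharp

/-- `DM` increases with `M`. -/
theorem DM_mono {A B : ℝ} (hA0 : 0 < A) (hA2 : A < 2) (hB0 : 0 < B) (hB2 : B < 2) (M k : ℕ) :
    DM M A B ≤ DM (M + k) A B := by
  induction k with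
  | zero => simp
  | succ k IH =>
    have e1 : DM (M + (k + 1)) A B = DM (M + k) A B +
        1 / ((A - 2 * (((((M + k : ℕ) : ℤ) + 1 : ℤ)) : ℝ)) * (B - 2 * (((((M + k : ℕ) : ℤ) + 1 : ℤ)) : ℝ))) +
        1 / ((A - 2 * ((-(((M + k : ℕ) : ℤ) + 1) : ℤ) : ℝ)) * (B - 2 * ((-(((M + k : ℕ) : ℤ) + 1) : ℤ) : ℝ))) := by
      unfold DM
      exact sum_Icc_succ (fun n : ℤ => 1 / ((A - 2 * (n : ℝ)) * (B - 2 * (n : ℝ)))) (M + k)
    rw [e1]
    push_cast
    set r : ℝ := (M : ℝ) + k with hr
    have hr0 : 0 ≤ r := by positivity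
    have t1 : 0 ≤ 1 / ((A - 2 * (r + 1)) * (B - 2 * (r + 1))) := by
      apply div_nonneg zero_le_one
      apply mul_nonneg_of_nonpos_of_nonpos <;> linarith
    have t2 : 0 ≤ 1 / ((A - 2 * -(r + 1)) * (B - 2 * -(r + 1))) := by
      apply div_nonneg zero_le_one
      apply mul_nonneg <;> linarith
    linarith

/-- The exact value of the limit kernel for `x ≠ y`. -/
theorem limit_eq {x y : ℝ} (hx0 : 0 < x) (hx1 : x < 1) (hy0 : 0 < y) (hy1 : y < 1) (hxy : x ≠ y) :
    (SS x - SS y) / (2 * y - 2 * x) - SS x * SS y =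
      Real.pi ^ 2 / 4 * (1 + (Real.sinc (Real.pi * (x - y)) - Real.cos (Real.pi * (x - y))) /
        (Real.sin (Real.pi * x) * Real.sin (Real.pi * y))) := by
  have hpi := Real.pi_pos
  set P := Real.pi * x with hP
  set Q := Real.pi * y with hQ
  have hP0 : 0 < P := by positivity
  have hQ0 : 0 < Q := by positivity
  have hP1 : P < Real.pi := by rw [hP]; nlinarith
  have hQ1 : Q < Real.pi := by rw [hQ]; nlinarith
  have hsP : 0 < Real.sin P := Real.sin_pos_of_pos_of_lt_pi hP0 hP1
  have hsQ : 0 < Real.sin Q := Real.sin_pos_of_pos_of_lt_pi hQ0 hQ1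
  have hu : Real.pi * (x - y) = P - Q := by rw [hP, hQ]; ring
  rw [hu]
  set u := Q - P with hudef
  have hu0 : u ≠ 0 := by
    intro h
    apply hxy
    have : Real.pi * (y - x) = 0 := by rw [mul_sub]; linarith
    have h2 : y - x = 0 := by
      rcases mul_eq_zero.1 this with h | h
      · exact absurd h hpi.ne'
      · exact h
    linarith
  have hPQ : P - Q = -u := by rw [hudef]; ring
  rw [hPQ, Real.sinc_neg, Real.cos_neg, Real.sinc_of_ne_zero hu0]
  have hsin : Real.sin u = Real.sin Q * Real.cos P - Real.cos Q * Real.sin P := Real.sin_sub _ _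
  have hcos : Real.cos u = Real.cos Q * Real.cos P + Real.sin Q * Real.sin P := Real.cos_sub _ _
  have hyx : 2 * y - 2 * x = 2 * u / Real.pi := by
    rw [hudef, hQ, hP]
    field_simp
  have hSx : SS x = Real.pi / 2 * (Real.cos P / Real.sin P) := rfl
  have hSy : SS y = Real.pi / 2 * (Real.cos Q / Real.sin Q) := rfl
  have e : (SS x - SS y) / (2 * y - 2 * x) =
      Real.pi ^ 2 / 4 * ((Real.sin u / u) / (Real.sin P * Real.sin Q)) := by
    rw [hSx, hSy, hyx, hsin]
    field_simp
    ring
  have e2 : SS x * SS y = Real.pi ^ 2 / 4 * ((Real.cos P * Real.cos Q) /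
      (Real.sin P * Real.sin Q)) := by
    rw [hSx, hSy]
    field_simp
    ring
  rw [e, e2, hcos]
  field_simp
  ring

/-- The bound for `A ≠ B`. -/
theorem kernel_ne {ε δ : ℝ} (hε : 0 < ε) (hδ : 0 < δ) :
    ∃ M₀ : ℕ, ∀ M ≥ M₀, ∀ x y : ℝ, ε ≤ x → x ≤ 1 - ε → ε ≤ y → y ≤ 1 - ε → x ≠ y →
      |DM M (2 * x) (2 * y) - SM M (2 * x) * SM M (2 * y) -
        Real.pi ^ 2 / 4 * (1 + (Real.sinc (Real.pi * (x - y)) - Real.cos (Real.pi * (x - y))) /
          (Real.sin (Real.pi * x) * Real.sin (Real.pi * y)))| ≤ δ := by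
  have hcont : ContinuousOn SS (Set.Icc ε (1 - ε)) := by
    unfold SS
    apply ContinuousOn.mul continuousOn_const
    apply ContinuousOn.div (by fun_prop) (by fun_prop)
    intro z hz
    have hpi := Real.pi_pos
    apply (Real.sin_pos_of_pos_of_lt_pi _ _).ne'
    · have : 0 < z := by linarith [hz.1]
      positivity
    · have : z < 1 := by linarith [hz.2]
      nlinarith
  obtain ⟨K, hK⟩ := isCompact_Icc.exists_bound_of_continuousOn hcont
  set K' : ℝ := max K 0 with hK'
  have hK'0 : 0 ≤ K' := le_max_right _ _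
  have hKb : ∀ z ∈ Set.Icc ε (1 - ε), |SS z| ≤ K' := fun z hz =>
    (by simpa using hK z hz : |SS z| ≤ K).trans (le_max_left _ _)
  obtain ⟨M₁, hM₁⟩ := exists_nat_gt ((1 + (2 * K' + 1)) / δ)
  refine ⟨M₁ + 2, ?_⟩
  intro M hM x y hx0 hx1 hy0 hy1 hxy
  have hM2 : 2 ≤ M := by omega
  have hMr : ((M₁ : ℝ) + 2) ≤ M := by exact_mod_cast hM
  have hMpos : (0 : ℝ) < M := by linarith [show (0 : ℝ) ≤ M₁ by positivity]
  have hx0' : 0 < x := by linarith
  have hx1' : x < 1 := by linarith
  have hy0' : 0 < y := by linarith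
  have hy1' : y < 1 := by linarith
  have hne : 2 * y - 2 * x ≠ 0 := by
    intro h
    apply hxy
    linarith
  rw [← limit_eq hx0' hx1' hy0' hy1' hxy]
  have hlow := DM_lower hx0' hx1' hy0' hy1' hxy M hM2
  -- the upper bound for `DM`
  have hup : DM M (2 * x) (2 * y) ≤ (SS x - SS y) / (2 * y - 2 * x) := by
    have hlimS : ∀ z : ℝ, 0 < z → z < 1 →
        Tendsto (fun n : ℕ => SM n (2 * z)) atTop (𝓝 (SS z)) := by
      intro z h0 h1
      rw [tendsto_iff_dist_tendsto_zero]
      have h2 : Tendsto (fun n : ℕ => 1 / (n : ℝ)) atTop (𝓝 0) :=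
        tendsto_one_div_atTop_nhds_zero_nat
      refine squeeze_zero' (Eventually.of_forall fun _ => dist_nonneg) ?_ h2
      filter_upwards [eventually_ge_atTop 1] with n hn
      rw [Real.dist_eq]
      exact SM_sub_SS h0 h1 n hn
    have hlimD : Tendsto (fun n : ℕ => DM n (2 * x) (2 * y)) atTop
        (𝓝 ((SS x - SS y) / (2 * y - 2 * x))) := by
      have h2 := ((hlimS x hx0' hx1').sub (hlimS y hy0' hy1')).div_const (2 * y - 2 * x)
      refine h2.congr ?_
      intro n
      rw [← DM_mul n (by linarith) (by linarith) (by linarith) (by linarith)]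
      field_simp
    refine ge_of_tendsto hlimD ?_
    filter_upwards [eventually_ge_atTop M] with n hn
    obtain ⟨k, rfl⟩ := Nat.exists_eq_add_of_le hn
    exact DM_mono (by linarith) (by linarith) (by linarith) (by linarith) M k
  have h3 := SM_sub_SS hx0' hx1' M (by omega)
  have h4 := SM_sub_SS hy0' hy1' M (by omega)
  have h5 := hKb x ⟨hx0, hx1⟩
  have h6 := hKb y ⟨hy0, hy1⟩
  set a := SM M (2 * x)
  set b := SM M (2 * y)
  set e := 1 / (M : ℝ) with he
  have he1 : e ≤ 1 := by
    rw [he, div_le_one hMpos]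
    linarith [show (0 : ℝ) ≤ M₁ by positivity]
  have he0 : 0 ≤ e := by positivity
  have hprod : |a * b - SS x * SS y| ≤ (2 * K' + 1) * e := by
    have e1 : a * b - SS x * SS y = (a - SS x) * (b - SS y) + (a - SS x) * SS y +
        SS x * (b - SS y) := by ring
    have t1 : |(a - SS x) * (b - SS y)| ≤ e * e := by
      rw [abs_mul]
      exact mul_le_mul h3 h4 (abs_nonneg _) he0
    have t2 : |(a - SS x) * SS y| ≤ e * K' := by
      rw [abs_mul]
      exact mul_le_mul h3 h6 (abs_nonneg _) he0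
    have t3 : |SS x * (b - SS y)| ≤ K' * e := by
      rw [abs_mul]
      exact mul_le_mul h5 h4 (abs_nonneg _) hK'0
    have t4 : e * e ≤ e := by nlinarith
    rw [e1]
    calc _ ≤ |(a - SS x) * (b - SS y) + (a - SS x) * SS y| + |SS x * (b - SS y)| := abs_add_le _ _
      _ ≤ |(a - SS x) * (b - SS y)| + |(a - SS x) * SS y| + |SS x * (b - SS y)| := by
          gcongr
          exact abs_add_le _ _
      _ ≤ _ := by nlinarith
  have htail : 1 / (2 * ((M : ℝ) - 1)) ≤ e := by
    rw [he]
    apply one_div_le_one_div_of_le hMpos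
    have : (2 : ℝ) ≤ M := by exact_mod_cast hM2
    linarith
  have hsmall : (1 + (2 * K' + 1)) * e ≤ δ := by
    have h7 : (1 + (2 * K' + 1)) / δ < M := by
      linarith [show (0 : ℝ) ≤ M₁ by positivity]
    rw [div_lt_iff₀ hδ] at h7
    rw [he, mul_one_div, div_le_iff₀ hMpos]
    linarith
  have hprod' := abs_le.1 hprod
  rw [abs_le]
  constructor <;> nlinarith [hprod'.1, hprod'.2]

/-- **Uniform limit of the kernel**, including `A = B`. -/
theorem kernel_limit {ε δ : ℝ} (hε : 0 < ε) (hδ : 0 < δ) :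
    ∃ M₀ : ℕ, ∀ M ≥ M₀, ∀ A B : ℝ, 2 * ε ≤ A → A ≤ 2 - 2 * ε → 2 * ε ≤ B → B ≤ 2 - 2 * ε →
      |DM M A B - SM M A * SM M B -
        Real.pi ^ 2 / 4 * (1 + (Real.sinc (Real.pi * (A - B) / 2) - Real.cos (Real.pi * (A - B) / 2)) /
          (Real.sin (Real.pi * A / 2) * Real.sin (Real.pi * B / 2)))| ≤ δ := by
  obtain ⟨M₀, hM₀⟩ := kernel_ne (ε := ε / 2) (by positivity) hδ
  refine ⟨M₀, ?_⟩
  intro M hM A B hA0 hA1 hB0 hB1
  have hpi := Real.pi_pos
  have key : ∀ C : ℝ, ε ≤ C → C ≤ 2 - ε → C ≠ A →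
      |DM M A C - SM M A * SM M C -
        Real.pi ^ 2 / 4 * (1 + (Real.sinc (Real.pi * (A - C) / 2) - Real.cos (Real.pi * (A - C) / 2)) /
          (Real.sin (Real.pi * A / 2) * Real.sin (Real.pi * C / 2)))| ≤ δ := by
    intro C hC0 hC1 hne
    have := hM₀ M hM (A / 2) (C / 2) (by linarith) (by linarith) (by linarith) (by linarith)
      (by intro h; apply hne; linarith)
    have e1 : 2 * (A / 2) = A := by ring
    have e2 : 2 * (C / 2) = C := by ring
    have e3 : Real.pi * (A / 2 - C / 2) = Real.pi * (A - C) / 2 := by ring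
    have e4 : Real.pi * (A / 2) = Real.pi * A / 2 := by ring
    have e5 : Real.pi * (C / 2) = Real.pi * C / 2 := by ring
    rwa [e1, e2, e3, e4, e5] at this
  by_cases hAB : B = A
  · subst hAB
    have hne : ∀ (n : ℤ), B - 2 * (n : ℝ) ≠ 0 := by
      intro n hc
      have h3 : B = 2 * (n : ℝ) := by linarith
      have h4 : (0 : ℝ) < n := by linarith
      have h5 : (n : ℝ) < 1 := by linarith
      have h6 : 0 < n := by exact_mod_cast h4
      have h7 : n < 1 := by exact_mod_cast h5
      omega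
    have hsB : 0 < Real.sin (Real.pi * B / 2) := by
      apply Real.sin_pos_of_pos_of_lt_pi
      · have : 0 < B := by linarith
        positivity
      · nlinarith
    have hcont : ContinuousAt (fun C : ℝ => |DM M B C - SM M B * SM M C -
        Real.pi ^ 2 / 4 * (1 + (Real.sinc (Real.pi * (B - C) / 2) - Real.cos (Real.pi * (B - C) / 2)) /
          (Real.sin (Real.pi * B / 2) * Real.sin (Real.pi * C / 2)))|) B := by
      apply ContinuousAt.abs
      apply ContinuousAt.sub
      · unfold DM SM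
        apply ContinuousAt.sub
        · refine tendsto_finset_sum _ fun n _ => ?_
          apply ContinuousAt.div continuousAt_const (by fun_prop)
          exact mul_ne_zero (hne n) (hne n)
        · apply ContinuousAt.mul continuousAt_const
          refine tendsto_finset_sum _ fun n _ => ?_
          apply ContinuousAt.div continuousAt_const (by fun_prop)
          exact hne n
      · apply ContinuousAt.mul continuousAt_const
        apply ContinuousAt.add continuousAt_const
        apply ContinuousAt.div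
        · apply ContinuousAt.sub
          · exact (Real.continuous_sinc.comp (by fun_prop)).continuousAt
          · fun_prop
        · fun_prop
        · exact (mul_pos hsB hsB).ne'
    have htend := hcont.tendsto.mono_left (nhdsWithin_le_nhds (s := {B}ᶜ))
    refine le_of_tendsto htend ?_
    have hIoo : Set.Ioo ε (2 - ε) ∈ 𝓝 B := Ioo_mem_nhds (by linarith) (by linarith)
    filter_upwards [mem_nhdsWithin_of_mem_nhds hIoo, self_mem_nhdsWithin] with C hC hCne
    exact key C hC.1.le hC.2.le hCne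
  · exact key B (by linarith) (by linarith) hAB

end Vale.Agent.Lib.P371.Sharp
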