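import Vale.Agent.Lib.P371.Sharp.Core
import Vale.Agent.Lib.P371.S.Final

/-!
# The sharp kinetic inequality and the sharp Lieb-Thirring bound at `γ = 1`.

`core_coord` is transported to a finite dimensional real inner product space by an orthonormal
basis; the scaling parameter `ε` is removed, then the regularity by the box mollifier, and the final
form follows by the pointwise Young inequality with the sharp constants.
-/

open MeasureTheory Set Filter Topology Matrix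
open scoped ENNReal

namespace Vale.Agent.Lib.P371.Sharp

open Vale.Agent.Lib.P371.S (boxAvg boxAvg_hasDerivAt boxAvg_tendsto avg_sq_lint bessel_general
  bessel_family ii_of_memLp integrable_norm_sq')

section general

variable {E : Type*} [NormedAddCommGroup E] [InnerProductSpace ℝ E]

/-- The scaled estimate, in a finite dimensional space. -/
theorem core_scaled [FiniteDimensional ℝ E] {Φ Φ' : ℝ → E} (hΦ : ∀ x, HasDerivAt Φ (Φ' x) x)
    (hΦ'c : Continuous Φ')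
    (hL2 : Integrable fun x => ‖Φ x‖ ^ 2) (hL2' : Integrable fun x => ‖Φ' x‖ ^ 2)
    (hbessel : ∀ e : E, ‖e‖ = 1 → ∫⁻ x, ENNReal.ofReal ((inner ℝ e (Φ x)) ^ 2) ≤ 1)
    {ε : ℝ} (hε : 0 < ε) (hε2 : ε < 1 / 2) :
    Integrable (fun x => ‖Φ x‖ ^ 6) ∧
    Real.pi ^ 2 / 4 * (1 - 2 * ε) ^ 2 * ∫ x, ‖Φ x‖ ^ 6 ≤ ∫ x, ‖Φ' x‖ ^ 2 := by
  have hΦc : Continuous Φ := continuous_iff_continuousAt.2 fun x => (hΦ x).continuousAt
  set c : ℝ := 1 - 2 * ε with hc
  have hc0 : 0 < c := by rw [hc]; linarith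
  set t : ℝ := Real.sqrt c with ht
  have ht2 : t ^ 2 = c := Real.sq_sqrt hc0.le
  set b := stdOrthonormalBasis ℝ E with hb
  set ξ : ℝ → Vec (Module.finrank ℝ E) := fun x i => t * inner ℝ (b i) (Φ x) with hξdef
  set ξ' : ℝ → Vec (Module.finrank ℝ E) := fun x i => t * inner ℝ (b i) (Φ' x) with hξ'def
  have hξ : ∀ x i, HasDerivAt (fun y => ξ y i) (ξ' x i) x := fun x i =>
    (((innerSL ℝ (b i)).hasFDerivAt.comp_hasDerivAt x (hΦ x))).const_mul t
  have hξ'c : Continuous ξ' :=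
    continuous_pi fun i => continuous_const.mul (continuous_const.inner hΦ'c)
  have hsq : ∀ (u : E), ∑ i, (t * inner ℝ (b i) u) * (t * inner ℝ (b i) u) = c * ‖u‖ ^ 2 := by
    intro u
    rw [← b.sum_sq_inner_right u, Finset.mul_sum, ← ht2]
    exact Finset.sum_congr rfl fun i _ => by ring
  have hdot : ∀ x, ξ x ⬝ᵥ ξ x = c * ‖Φ x‖ ^ 2 := fun x => hsq (Φ x)
  have hdot' : ∀ x, ξ' x ⬝ᵥ ξ' x = c * ‖Φ' x‖ ^ 2 := fun x => hsq (Φ' x)
  have hinner_dom : ∀ {e : E} {Ψ : ℝ → E}, Continuous Ψ → Integrable (fun x => ‖Ψ x‖ ^ 2) →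
      Integrable fun x => (inner ℝ e (Ψ x) : ℝ) ^ 2 := by
    intro e Ψ hΨc hΨ
    refine (hΨ.const_mul (‖e‖ ^ 2)).mono' (((continuous_const.inner hΨc).pow 2).aestronglyMeasurable)
      (Eventually.of_forall fun x => ?_)
    rw [Real.norm_of_nonneg (sq_nonneg _), ← mul_pow, ← sq_abs]
    exact pow_le_pow_left₀ (abs_nonneg _) (abs_real_inner_le_norm e (Ψ x)) 2
  have hL2c : ∀ i, Integrable fun x => ξ x i ^ 2 := by
    intro i
    have := (hinner_dom (e := b i) hΦc hL2).const_mul (t ^ 2)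
    refine this.congr (Eventually.of_forall fun x => ?_)
    simp only [hξdef]
    ring
  have hL2c' : ∀ i, Integrable fun x => ξ' x i ^ 2 := by
    intro i
    have := (hinner_dom (e := b i) hΦ'c hL2').const_mul (t ^ 2)
    refine this.congr (Eventually.of_forall fun x => ?_)
    simp only [hξ'def]
    ring
  have hbes : ∀ v : Vec (Module.finrank ℝ E), ∫ x, (v ⬝ᵥ ξ x) ^ 2 ≤ (1 - 2 * ε) * (v ⬝ᵥ v) := by
    intro v
    set e : E := ∑ i, v i • b i with he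
    have he2 : ‖e‖ ^ 2 = v ⬝ᵥ v := by
      rw [← real_inner_self_eq_norm_sq, he, b.orthonormal.inner_sum v v Finset.univ]
      simp [dotProduct]
    have hinner : ∀ x, v ⬝ᵥ ξ x = t * inner ℝ e (Φ x) := by
      intro x
      rw [he, sum_inner, Finset.mul_sum]
      refine Finset.sum_congr rfl fun i _ => ?_
      rw [real_inner_smul_left]
      simp only [hξdef]
      ring
    have hi := hinner_dom (e := e) hΦc hL2
    have h1 : ∫ x, (inner ℝ e (Φ x) : ℝ) ^ 2 ≤ ‖e‖ ^ 2 := by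
      have h2 := bessel_general hbessel e
      rw [← ofReal_integral_eq_lintegral_ofReal hi (Eventually.of_forall fun x => sq_nonneg _)] at h2
      exact (ENNReal.ofReal_le_ofReal_iff (sq_nonneg _)).1 h2
    have e1 : ∀ x, (v ⬝ᵥ ξ x) ^ 2 = c * (inner ℝ e (Φ x) : ℝ) ^ 2 := by
      intro x
      rw [hinner, mul_pow, ht2]
    simp only [e1]
    rw [integral_const_mul, ← he2]
    exact mul_le_mul_of_nonneg_left h1 hc0.le
  obtain ⟨hint, hineq⟩ := core_coord hε hε2 hξ hξ'c hL2c hL2c' hbes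
  have e3 : ∀ x, (ξ x ⬝ᵥ ξ x) ^ 3 = c ^ 3 * ‖Φ x‖ ^ 6 := by
    intro x
    rw [hdot]
    ring
  simp only [e3, hdot'] at hint hineq
  have hI6 : Integrable fun x => ‖Φ x‖ ^ 6 := by
    have := hint.const_mul ((c ^ 3)⁻¹)
    refine this.congr (Eventually.of_forall fun x => ?_)
    field_simp
  refine ⟨hI6, ?_⟩
  rw [integral_const_mul, integral_const_mul] at hineq
  have h3 : c * (Real.pi ^ 2 / 4 * c ^ 2 * ∫ x, ‖Φ x‖ ^ 6) ≤ c * ∫ x, ‖Φ' x‖ ^ 2 := by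
    calc c * (Real.pi ^ 2 / 4 * c ^ 2 * ∫ x, ‖Φ x‖ ^ 6)
        = Real.pi ^ 2 / 4 * (c ^ 3 * ∫ x, ‖Φ x‖ ^ 6) := by ring
      _ ≤ _ := hineq
  exact le_of_mul_le_mul_left h3 hc0

/-- The sharp kinetic inequality for `C¹` curves in a finite dimensional space. -/
theorem core_sharp_C1 [FiniteDimensional ℝ E] {Φ Φ' : ℝ → E} (hΦ : ∀ x, HasDerivAt Φ (Φ' x) x)
    (hΦ'c : Continuous Φ')
    (hL2 : Integrable fun x => ‖Φ x‖ ^ 2) (hL2' : Integrable fun x => ‖Φ' x‖ ^ 2)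
    (hbessel : ∀ e : E, ‖e‖ = 1 → ∫⁻ x, ENNReal.ofReal ((inner ℝ e (Φ x)) ^ 2) ≤ 1) :
    ∫⁻ x, ENNReal.ofReal (‖Φ x‖ ^ 6) ≤ ENNReal.ofReal ((4 / Real.pi ^ 2) * ∫ x, ‖Φ' x‖ ^ 2) := by
  have hI6 := (core_scaled hΦ hΦ'c hL2 hL2' hbessel (ε := 1 / 4) (by norm_num) (by norm_num)).1
  set I := ∫ x, ‖Φ x‖ ^ 6 with hI
  set T := ∫ x, ‖Φ' x‖ ^ 2 with hT
  have hT0 : 0 ≤ T := integral_nonneg fun x => by positivity
  have hpi : 0 < Real.pi ^ 2 := by positivity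
  have hlim : Tendsto (fun ε : ℝ => Real.pi ^ 2 / 4 * (1 - 2 * ε) ^ 2 * I) (𝓝[>] 0)
      (𝓝 (Real.pi ^ 2 / 4 * I)) := by
    have hc : Continuous fun ε : ℝ => Real.pi ^ 2 / 4 * (1 - 2 * ε) ^ 2 * I := by fun_prop
    have := (hc.tendsto 0).mono_left (nhdsWithin_le_nhds (s := Ioi 0))
    simpa using this
  have hle : Real.pi ^ 2 / 4 * I ≤ T := by
    refine le_of_tendsto hlim ?_
    have hev : ∀ᶠ ε : ℝ in 𝓝[>] 0, ε ∈ Ioo (0 : ℝ) (1 / 2) := Ioo_mem_nhdsGT (by norm_num)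
    filter_upwards [hev] with ε hε
    exact (core_scaled hΦ hΦ'c hL2 hL2' hbessel hε.1 hε.2).2
  rw [← ofReal_integral_eq_lintegral_ofReal hI6 (Eventually.of_forall fun x => by positivity)]
  apply ENNReal.ofReal_le_ofReal
  rw [div_mul_eq_mul_div, le_div_iff₀ hpi]
  linarith

/-- The sharp kinetic inequality in `H¹`: box mollifier. -/
theorem core_sharp_H1 [CompleteSpace E] [FiniteDimensional ℝ E] {Φ Φ' : ℝ → E} (hΦc : Continuous Φ)
    (hftc : ∀ a b : ℝ, IntervalIntegrable Φ' volume a b ∧ ∫ t in a..b, Φ' t = Φ b - Φ a)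
    (hL2 : Integrable fun x => ‖Φ x‖ ^ 2) (hL2' : Integrable fun x => ‖Φ' x‖ ^ 2)
    (hbessel : ∀ e : E, ‖e‖ = 1 → ∫⁻ x, ENNReal.ofReal ((inner ℝ e (Φ x)) ^ 2) ≤ 1) :
    ∫⁻ x, ENNReal.ofReal (‖Φ x‖ ^ 6) ≤ ENNReal.ofReal ((4 / Real.pi ^ 2) * ∫ x, ‖Φ' x‖ ^ 2) := by
  have hT0 : 0 ≤ ∫ x, ‖Φ' x‖ ^ 2 := integral_nonneg fun x => by positivity
  have hstep : ∀ d : ℝ, 0 < d → ∫⁻ x, ENNReal.ofReal (‖boxAvg Φ d x‖ ^ 6)
      ≤ ENNReal.ofReal ((4 / Real.pi ^ 2) * ∫ x, ‖Φ' x‖ ^ 2) := by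
    intro d hd
    have hderiv := boxAvg_hasDerivAt hΦc d
    have hcΨ : Continuous (boxAvg Φ d) :=
      continuous_iff_continuousAt.2 fun x => (hderiv x).continuousAt
    have hcΨ' : Continuous fun x => d⁻¹ • (Φ (x + d) - Φ x) :=
      ((hΦc.comp (continuous_id.add continuous_const)).sub hΦc).const_smul _
    have e' : ∀ x, d⁻¹ • (Φ (x + d) - Φ x) = d⁻¹ • ∫ t in x..x + d, Φ' t := by
      intro x
      rw [(hftc x (x + d)).2]
    have hb1 : ∫⁻ x, ENNReal.ofReal (‖boxAvg Φ d x‖ ^ 2) ≤ ∫⁻ x, ENNReal.ofReal (‖Φ x‖ ^ 2) :=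
      avg_sq_lint (fun a b => hΦc.intervalIntegrable a b) hL2 hd
    have hb2 : ∫⁻ x, ENNReal.ofReal (‖d⁻¹ • (Φ (x + d) - Φ x)‖ ^ 2)
        ≤ ∫⁻ x, ENNReal.ofReal (‖Φ' x‖ ^ 2) := by
      simp_rw [e']
      exact avg_sq_lint (fun a b => (hftc a b).1) hL2' hd
    have hint : ∀ {g : ℝ → ℝ}, Continuous g → (∀ x, 0 ≤ g x) → ∀ {h : ℝ → ℝ}, Integrable h →
        (∀ x, 0 ≤ h x) → ∫⁻ x, ENNReal.ofReal (g x) ≤ ∫⁻ x, ENNReal.ofReal (h x) →
        Integrable g := by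
      intro g hgc hg0 h hh hh0 hle
      refine ⟨hgc.aestronglyMeasurable, ?_⟩
      rw [hasFiniteIntegral_iff_ofReal (Eventually.of_forall hg0)]
      refine lt_of_le_of_lt hle ?_
      rw [← ofReal_integral_eq_lintegral_ofReal hh (Eventually.of_forall hh0)]
      exact ENNReal.ofReal_lt_top
    have i1 : Integrable fun x => ‖boxAvg Φ d x‖ ^ 2 :=
      hint (hcΨ.norm.pow 2) (fun x => by positivity) hL2 (fun x => by positivity) hb1
    have i2 : Integrable fun x => ‖d⁻¹ • (Φ (x + d) - Φ x)‖ ^ 2 :=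
      hint (hcΨ'.norm.pow 2) (fun x => by positivity) hL2' (fun x => by positivity) hb2
    have hbes : ∀ e : E, ‖e‖ = 1 →
        ∫⁻ x, ENNReal.ofReal ((inner ℝ e (boxAvg Φ d x)) ^ 2) ≤ 1 := by
      intro e he
      have hfc : Continuous fun x => inner ℝ e (Φ x) := continuous_const.inner hΦc
      have hsq : ∀ x, ‖inner ℝ e (Φ x)‖ ^ 2 = (inner ℝ e (Φ x)) ^ 2 := fun x => by
        rw [Real.norm_eq_abs, sq_abs]
      have hdom : Integrable fun x => ‖inner ℝ e (Φ x)‖ ^ 2 := by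
        refine hL2.mono' ((hfc.norm.pow 2).aestronglyMeasurable)
          (Eventually.of_forall fun x => ?_)
        rw [Real.norm_of_nonneg (by positivity)]
        have h1 : ‖inner ℝ e (Φ x)‖ ≤ ‖Φ x‖ := by
          have := norm_inner_le_norm (𝕜 := ℝ) e (Φ x)
          rwa [he, one_mul] at this
        exact pow_le_pow_left₀ (norm_nonneg _) h1 2
      have h2 := avg_sq_lint (fun a b => hfc.intervalIntegrable a b) hdom hd
      have e3 : ∀ x, inner ℝ e (boxAvg Φ d x) = d⁻¹ • ∫ t in x..x + d, inner ℝ e (Φ t) := by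
        intro x
        rw [boxAvg, real_inner_smul_right, smul_eq_mul]
        congr 1
        exact (ContinuousLinearMap.intervalIntegral_comp_comm (innerSL ℝ e)
          (hΦc.intervalIntegrable _ _)).symm
      have e4 : ∀ x, (inner ℝ e (boxAvg Φ d x)) ^ 2
          = ‖d⁻¹ • ∫ t in x..x + d, inner ℝ e (Φ t)‖ ^ 2 := by
        intro x
        rw [e3, Real.norm_eq_abs, sq_abs]
      simp_rw [e4]
      refine h2.trans ?_
      simp_rw [hsq]
      exact hbessel e he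
    have hcore := core_sharp_C1 hderiv hcΨ' i1 i2 hbes
    refine hcore.trans (ENNReal.ofReal_le_ofReal ?_)
    apply mul_le_mul_of_nonneg_left _ (by positivity)
    have h1 : ENNReal.ofReal (∫ x, ‖d⁻¹ • (Φ (x + d) - Φ x)‖ ^ 2)
        ≤ ENNReal.ofReal (∫ x, ‖Φ' x‖ ^ 2) := by
      rw [ofReal_integral_eq_lintegral_ofReal i2 (Eventually.of_forall fun x => by positivity),
        ofReal_integral_eq_lintegral_ofReal hL2' (Eventually.of_forall fun x => by positivity)]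
      exact hb2
    exact (ENNReal.ofReal_le_ofReal_iff hT0).1 h1
  have hlim : ∀ x, Tendsto (fun k : ℕ => ENNReal.ofReal (‖boxAvg Φ (1 / ((k : ℝ) + 1)) x‖ ^ 6))
      atTop (𝓝 (ENNReal.ofReal (‖Φ x‖ ^ 6))) := fun x =>
    ENNReal.tendsto_ofReal (((boxAvg_tendsto hΦc x).norm).pow 6)
  have hmeas : ∀ k : ℕ, Measurable fun x =>
      ENNReal.ofReal (‖boxAvg Φ (1 / ((k : ℝ) + 1)) x‖ ^ 6) := by
    intro k
    have hc : Continuous (boxAvg Φ (1 / ((k : ℝ) + 1))) :=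
      continuous_iff_continuousAt.2 fun x => (boxAvg_hasDerivAt hΦc _ x).continuousAt
    exact ((hc.norm.pow 6).measurable).ennreal_ofReal
  calc ∫⁻ x, ENNReal.ofReal (‖Φ x‖ ^ 6)
      = ∫⁻ x, liminf (fun k : ℕ => ENNReal.ofReal (‖boxAvg Φ (1 / ((k : ℝ) + 1)) x‖ ^ 6)) atTop := by
        refine lintegral_congr fun x => ?_
        exact (hlim x).liminf_eq.symm
    _ ≤ liminf (fun k : ℕ => ∫⁻ x, ENNReal.ofReal (‖boxAvg Φ (1 / ((k : ℝ) + 1)) x‖ ^ 6)) atTop :=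
        lintegral_liminf_le hmeas
    _ ≤ _ := by
        refine Filter.liminf_le_of_frequently_le' (Frequently.of_forall fun k => ?_)
        exact hstep _ (by positivity)

end general

/-- The pointwise Young inequality with the sharp constants. -/
lemma young_sharp {W r : ℝ} (hW : 0 ≤ W) (hr : 0 ≤ r) :
    W * r ≤ (Real.pi ^ 2 / 4) * r ^ 3
      + (4 / (3 * Real.sqrt 3 * Real.pi)) * W ^ (3 / 2 : ℝ) := by
  set w := Real.sqrt W with hw
  have hw0 : 0 ≤ w := Real.sqrt_nonneg W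
  have h2 : W = w ^ 2 := (Real.sq_sqrt hW).symm
  have h3 : W ^ (3 / 2 : ℝ) = w ^ 3 := by
    rw [hw, Real.sqrt_eq_rpow, ← Real.rpow_natCast, ← Real.rpow_mul hW]
    norm_num
  rw [h3, h2]
  set s := Real.sqrt 3 with hs
  have hs2 : s ^ 2 = 3 := Real.sq_sqrt (by norm_num)
  have hs0 : 0 < s := Real.sqrt_pos.2 (by norm_num)
  have hpi : 0 < Real.pi := Real.pi_pos
  set r₀ : ℝ := 2 * w / (s * Real.pi) with hr₀
  have hr₀0 : 0 ≤ r₀ := by positivity
  have key : (Real.pi ^ 2 / 4) * r ^ 3 + (4 / (3 * s * Real.pi)) * w ^ 3 - w ^ 2 * r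
      = (Real.pi ^ 2 / 4) * ((r - r₀) ^ 2 * (r + 2 * r₀)) := by
    rw [hr₀]
    have hs3 : s ^ 3 = 3 * s := by
      calc s ^ 3 = s ^ 2 * s := by ring
        _ = _ := by rw [hs2]
    field_simp
    ring_nf
    simp only [hs2, hs3]
    ring
  have h4 : 0 ≤ (Real.pi ^ 2 / 4) * ((r - r₀) ^ 2 * (r + 2 * r₀)) := by positivity
  linarith

/-- The kinetic form and the final form for orthonormal families and scalar potentials:
`∑ⱼ ∫ W |φⱼ|² ≤ ∑ⱼ ∫ |φⱼ'|² + (4/(3√3π)) ∫ W^{3/2}`. -/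
theorem main_sharp {N : ℕ} (φ φ' : Fin N → ℝ → ℂ)
    (hφ : ∀ j, MemLp (φ j) 2 volume) (hφ' : ∀ j, MemLp (φ' j) 2 volume)
    (hftc : ∀ j, ∀ a b : ℝ, ∫ t in a..b, φ' j t = φ j b - φ j a)
    (orth : ∀ i j, ∫ x, (starRingEnd ℂ) (φ i x) * φ j x = if i = j then (1 : ℂ) else 0)
    (W : ℝ → ℝ) (hWm : Measurable W) (hW : ∀ x, 0 ≤ W x)
    (hWi : Integrable fun x => W x ^ (3 / 2 : ℝ)) :
    (∀ j, Integrable fun x => W x * ‖φ j x‖ ^ 2) ∧
    ∑ j, ∫ x, W x * ‖φ j x‖ ^ 2 ≤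
      (∑ j, ∫ x, ‖φ' j x‖ ^ 2) + (4 / (3 * Real.sqrt 3 * Real.pi)) * ∫ x, W x ^ (3 / 2 : ℝ) := by
  set Φ : ℝ → EuclideanSpace ℂ (Fin N) := fun x => WithLp.toLp 2 (fun j => φ j x) with hΦdef
  set Φ' : ℝ → EuclideanSpace ℂ (Fin N) := fun x => WithLp.toLp 2 (fun j => φ' j x) with hΦ'def
  have hii : ∀ j a b, IntervalIntegrable (φ' j) volume a b := fun j a b => ii_of_memLp (hφ' j) a b
  have hcont : ∀ j, Continuous (φ j) := by
    intro j
    have e : φ j = fun x => φ j 0 + ∫ t in (0 : ℝ)..x, φ' j t := by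
      ext x
      rw [hftc]
      ring
    rw [e]
    exact continuous_const.add (intervalIntegral.continuous_primitive (hii j) 0)
  have hΦc : Continuous Φ := (PiLp.continuous_toLp 2 _).comp (continuous_pi hcont)
  have hΦn : ∀ x, ‖Φ x‖ ^ 2 = ∑ j, ‖φ j x‖ ^ 2 := fun x => EuclideanSpace.norm_sq_eq _
  have hΦ'n : ∀ x, ‖Φ' x‖ ^ 2 = ∑ j, ‖φ' j x‖ ^ 2 := fun x => EuclideanSpace.norm_sq_eq _
  have hL2 : Integrable fun x => ‖Φ x‖ ^ 2 := by
    simp only [hΦn]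
    exact integrable_finsetSum _ fun j _ => integrable_norm_sq' (hφ j)
  have hL2' : Integrable fun x => ‖Φ' x‖ ^ 2 := by
    simp only [hΦ'n]
    exact integrable_finsetSum _ fun j _ => integrable_norm_sq' (hφ' j)
  have hsum : ∀ x, Φ' x = ∑ j, φ' j x • (EuclideanSpace.single j (1 : ℂ)) := by
    intro x
    ext i
    simp [hΦ'def, Finset.sum_apply, Pi.single_apply]
  have hsmulint : ∀ j a b, IntervalIntegrable
      (fun x => φ' j x • (EuclideanSpace.single j (1 : ℂ) : EuclideanSpace ℂ (Fin N))) volume a b :=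
    fun j a b => ⟨(hii j a b).1.smul_const _, (hii j a b).2.smul_const _⟩
  have hftc' : ∀ a b : ℝ, IntervalIntegrable Φ' volume a b ∧ ∫ t in a..b, Φ' t = Φ b - Φ a := by
    intro a b
    have e1 : Φ' = ∑ j, fun x => φ' j x • (EuclideanSpace.single j (1 : ℂ) : EuclideanSpace ℂ (Fin N)) := by
      ext x : 1
      rw [hsum, Finset.sum_apply]
    constructor
    · rw [e1]
      exact IntervalIntegrable.sum _ fun j _ => hsmulint j a b
    · simp only [hsum]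
      rw [intervalIntegral.integral_finsetSum fun j _ => hsmulint j a b]
      simp only [intervalIntegral.integral_smul_const, hftc]
      ext i
      simp [hΦdef, Finset.sum_apply, Pi.single_apply]
  have hbes : ∀ e : EuclideanSpace ℂ (Fin N), ‖e‖ = 1 →
      ∫⁻ x, ENNReal.ofReal ((inner ℝ e (Φ x)) ^ 2) ≤ 1 :=
    fun e he => bessel_family φ hφ orth e he
  have : FiniteDimensional ℝ (EuclideanSpace ℂ (Fin N)) :=
    FiniteDimensional.complexToReal _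
  have hcore := core_sharp_H1 hΦc hftc' hL2 hL2' hbes
  have hT0 : 0 ≤ ∫ x, ‖Φ' x‖ ^ 2 := integral_nonneg fun x => by positivity
  have hρ3 : Integrable fun x => ‖Φ x‖ ^ 6 := by
    refine ⟨(hΦc.norm.pow 6).aestronglyMeasurable, ?_⟩
    rw [hasFiniteIntegral_iff_ofReal (Eventually.of_forall fun x => by positivity)]
    exact hcore.trans_lt ENNReal.ofReal_lt_top
  have hpi : 0 < Real.pi ^ 2 := by positivity
  have hρ3le : ∫ x, ‖Φ x‖ ^ 6 ≤ (4 / Real.pi ^ 2) * ∫ x, ‖Φ' x‖ ^ 2 := by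
    rw [← ofReal_integral_eq_lintegral_ofReal hρ3
      (Eventually.of_forall fun x => by positivity)] at hcore
    exact (ENNReal.ofReal_le_ofReal_iff (by positivity)).mp hcore
  have hyoung : ∀ x, W x * ‖Φ x‖ ^ 2 ≤ (Real.pi ^ 2 / 4) * ‖Φ x‖ ^ 6
      + (4 / (3 * Real.sqrt 3 * Real.pi)) * W x ^ (3 / 2 : ℝ) := by
    intro x
    have := young_sharp (hW x) (sq_nonneg ‖Φ x‖)
    calc W x * ‖Φ x‖ ^ 2 ≤ (Real.pi ^ 2 / 4) * (‖Φ x‖ ^ 2) ^ 3
          + (4 / (3 * Real.sqrt 3 * Real.pi)) * W x ^ (3 / 2 : ℝ) := this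
      _ = _ := by ring
  have hdom : Integrable fun x => (Real.pi ^ 2 / 4) * ‖Φ x‖ ^ 6
      + (4 / (3 * Real.sqrt 3 * Real.pi)) * W x ^ (3 / 2 : ℝ) :=
    (hρ3.const_mul _).add (hWi.const_mul _)
  have hle : ∀ j x, ‖φ j x‖ ^ 2 ≤ ‖Φ x‖ ^ 2 := by
    intro j x
    rw [hΦn]
    exact Finset.single_le_sum (f := fun j => ‖φ j x‖ ^ 2) (fun i _ => by positivity)
      (Finset.mem_univ j)
  have hintj : ∀ j, Integrable fun x => W x * ‖φ j x‖ ^ 2 := by
    intro j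
    refine hdom.mono' ?_ (Eventually.of_forall fun x => ?_)
    · exact (hWm.mul (((hcont j).norm.pow 2).measurable)).aestronglyMeasurable
    · rw [Real.norm_of_nonneg (mul_nonneg (hW x) (by positivity))]
      exact (mul_le_mul_of_nonneg_left (hle j x) (hW x)).trans (hyoung x)
  refine ⟨hintj, ?_⟩
  have hsumW : ∑ j, ∫ x, W x * ‖φ j x‖ ^ 2 = ∫ x, W x * ‖Φ x‖ ^ 2 := by
    rw [← integral_finsetSum _ fun j _ => hintj j]
    congr 1
    ext x
    rw [hΦn, Finset.mul_sum]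
  have hsumT : ∑ j, ∫ x, ‖φ' j x‖ ^ 2 = ∫ x, ‖Φ' x‖ ^ 2 := by
    rw [← integral_finsetSum _ fun j _ => integrable_norm_sq' (hφ' j)]
    congr 1
    ext x
    rw [hΦ'n]
  have hintW : Integrable fun x => W x * ‖Φ x‖ ^ 2 := by
    have : (fun x => W x * ‖Φ x‖ ^ 2) = fun x => ∑ j, W x * ‖φ j x‖ ^ 2 := by
      ext x
      rw [hΦn, Finset.mul_sum]
    rw [this]
    exact integrable_finsetSum _ fun j _ => hintj j
  rw [hsumW, hsumT]
  calc ∫ x, W x * ‖Φ x‖ ^ 2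
      ≤ ∫ x, ((Real.pi ^ 2 / 4) * ‖Φ x‖ ^ 6
          + (4 / (3 * Real.sqrt 3 * Real.pi)) * W x ^ (3 / 2 : ℝ)) :=
        integral_mono hintW hdom hyoung
    _ = (Real.pi ^ 2 / 4) * (∫ x, ‖Φ x‖ ^ 6)
          + (4 / (3 * Real.sqrt 3 * Real.pi)) * ∫ x, W x ^ (3 / 2 : ℝ) := by
        rw [integral_add (hρ3.const_mul _) (hWi.const_mul _), integral_const_mul, integral_const_mul]
    _ ≤ (∫ x, ‖Φ' x‖ ^ 2) + (4 / (3 * Real.sqrt 3 * Real.pi)) * ∫ x, W x ^ (3 / 2 : ℝ) := by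
        have : (Real.pi ^ 2 / 4) * (∫ x, ‖Φ x‖ ^ 6) ≤ ∫ x, ‖Φ' x‖ ^ 2 := by
          calc (Real.pi ^ 2 / 4) * (∫ x, ‖Φ x‖ ^ 6)
              ≤ (Real.pi ^ 2 / 4) * ((4 / Real.pi ^ 2) * ∫ x, ‖Φ' x‖ ^ 2) :=
                mul_le_mul_of_nonneg_left hρ3le (by positivity)
            _ = _ := by
                field_simp
        linarith

end Vale.Agent.Lib.P371.Sharp
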