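import Mathlib
import Vale.Agent.Lib.P371.Sharp.Defs

/-!
# Sharp kinetic Lieb-Thirring: the pointwise inequality

In an eigenbasis of `F` the entries of the solution `Ω` of the shifted Lyapunov equation are
`zⱼ zₖ / (fⱼ + fₖ - 2n)`.
-/

open Matrix Finset

namespace Vale.Agent.Lib.P371.Sharp

variable {d : ℕ}

/-- The eigenvalues lie between the quadratic form bounds. -/
theorem eigen_bound {ε : ℝ} {F Q : Mat d} {f : Fin d → ℝ} (hQ : QBound ε F) (h1 : Qᵀ * Q = 1)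
    (h3 : F = Q * diagonal f * Qᵀ) (j : Fin d) : ε ≤ f j ∧ f j ≤ 1 - ε := by
  set e : Vec d := Pi.single j 1 with he
  set v : Vec d := Q *ᵥ e with hv
  have hee : e ⬝ᵥ e = 1 := by simp [he]
  have hdot : ∀ u w : Vec d, (Q *ᵥ u) ⬝ᵥ (Q *ᵥ w) = u ⬝ᵥ w := by
    intro u w
    rw [Matrix.dotProduct_mulVec, ← Matrix.mulVec_transpose, Matrix.mulVec_mulVec, h1,
      Matrix.one_mulVec]
  have hvv : v ⬝ᵥ v = 1 := by rw [hv, hdot, hee]
  have hFv : F *ᵥ v = Q *ᵥ (diagonal f *ᵥ e) := by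
    rw [hv, h3]
    simp only [Matrix.mulVec_mulVec]
    rw [Matrix.mul_assoc, Matrix.mul_assoc, h1, Matrix.mul_one]
  have hde : diagonal f *ᵥ e = f j • e := by
    ext i
    rw [Matrix.mulVec_diagonal]
    by_cases h : i = j
    · subst h; simp [he]
    · simp [he, h]
  have hvFv : v ⬝ᵥ (F *ᵥ v) = f j := by
    rw [hFv, hde, hv, hdot, dotProduct_smul, hee]
    simp
  have := hQ.2 v
  rw [hvFv, hvv, mul_one, mul_one] at this
  exact this

/-- The spectral theorem for `F`. -/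
theorem eigen_data {ε : ℝ} {F : Mat d} (hQ : QBound ε F) :
    ∃ (Q : Mat d) (f : Fin d → ℝ), Qᵀ * Q = 1 ∧ Q * Qᵀ = 1 ∧ F = Q * diagonal f * Qᵀ ∧
      ∀ j, ε ≤ f j ∧ f j ≤ 1 - ε := by
  have hH : F.IsHermitian := by
    unfold Matrix.IsHermitian
    rw [Matrix.conjTranspose_eq_transpose_of_trivial]
    exact hQ.1
  have h1 : (hH.eigenvectorUnitary : Mat d)ᵀ * (hH.eigenvectorUnitary : Mat d) = 1 := by
    have := Unitary.coe_star_mul_self hH.eigenvectorUnitary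
    rwa [Matrix.star_eq_conjTranspose, Matrix.conjTranspose_eq_transpose_of_trivial] at this
  have h2 : (hH.eigenvectorUnitary : Mat d) * (hH.eigenvectorUnitary : Mat d)ᵀ = 1 := by
    have := Matrix.mem_unitaryGroup_iff.1 hH.eigenvectorUnitary.2
    rwa [Matrix.star_eq_conjTranspose, Matrix.conjTranspose_eq_transpose_of_trivial] at this
  have h3 : F = (hH.eigenvectorUnitary : Mat d) * diagonal hH.eigenvalues *
      (hH.eigenvectorUnitary : Mat d)ᵀ := by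
    have := hH.spectral_theorem
    rw [Unitary.conjStarAlgAut_apply, Matrix.star_eq_conjTranspose,
      Matrix.conjTranspose_eq_transpose_of_trivial] at this
    simpa using this
  exact ⟨_, hH.eigenvalues, h1, h2, h3, fun j => eigen_bound hQ h1 h3 j⟩

section conj

variable {F Q : Mat d} {f : Fin d → ℝ}

/-- `F - n` in the eigenbasis. -/
theorem shift_eq (h2 : Q * Qᵀ = 1) (h3 : F = Q * diagonal f * Qᵀ) (n : ℤ) :
    F - (n : ℝ) • (1 : Mat d) = Q * diagonal (fun j => f j - n) * Qᵀ := by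
  have hD : diagonal (fun j => f j - (n : ℝ)) = diagonal f - (n : ℝ) • (1 : Mat d) := by
    ext i j
    by_cases hij : i = j
    · subst hij; simp
    · simp [Matrix.diagonal_apply, hij, Matrix.one_apply]
  rw [hD, Matrix.mul_sub, Matrix.sub_mul, ← h3, Matrix.mul_smul, Matrix.smul_mul, Matrix.mul_one, h2]

/-- The denominators do not vanish. -/
theorem denom_ne {ε : ℝ} (hε : 0 < ε) (hf : ∀ j, ε ≤ f j ∧ f j ≤ 1 - ε) (j k : Fin d) (n : ℤ) :
    f j + f k - 2 * (n : ℝ) ≠ 0 := by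
  intro h
  have h1 := (hf j).1
  have h2 := (hf j).2
  have h3 := (hf k).1
  have h4 := (hf k).2
  have h5 : (0 : ℝ) < n := by linarith
  have h6 : (n : ℝ) < 1 := by linarith
  have h7 : 0 < n := by exact_mod_cast h5
  have h8 : n < 1 := by exact_mod_cast h6
  omega

/-- Existence of a solution of the Lyapunov equation. -/
theorem lyap_exists {ε : ℝ} (hε : 0 < ε) (h1 : Qᵀ * Q = 1) (h2 : Q * Qᵀ = 1)
    (h3 : F = Q * diagonal f * Qᵀ) (hf : ∀ j, ε ≤ f j ∧ f j ≤ 1 - ε) (n : ℤ) (ξ : Vec d) :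
    ∃ Ω, lyap F n Ω = vecMulVec ξ ξ := by
  set z : Vec d := Qᵀ *ᵥ ξ with hz
  set Y : Mat d := Matrix.of fun j k => z j * z k / (f j + f k - 2 * (n : ℝ)) with hY
  refine ⟨Q * Y * Qᵀ, ?_⟩
  have hG := shift_eq h2 h3 n
  set D : Mat d := diagonal (fun j => f j - (n : ℝ)) with hD
  have hQz : Q *ᵥ z = ξ := by
    rw [hz, Matrix.mulVec_mulVec, h2, Matrix.one_mulVec]
  have hent : D * Y + Y * D = vecMulVec z z := by
    ext j k
    simp only [Matrix.add_apply, hD, Matrix.diagonal_mul, Matrix.mul_diagonal, hY, Matrix.of_apply,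
      vecMulVec_apply]
    have hne := denom_ne hε hf j k n
    have e : (f j - (n : ℝ)) * (z j * z k / (f j + f k - 2 * (n : ℝ))) +
        (z j * z k / (f j + f k - 2 * (n : ℝ))) * (f k - (n : ℝ)) =
        (f j + f k - 2 * (n : ℝ)) * (z j * z k / (f j + f k - 2 * (n : ℝ))) := by ring
    rw [e, mul_div_cancel₀ _ hne]
  unfold lyap
  rw [hG]
  have e1 : Q * D * Qᵀ * (Q * Y * Qᵀ) = Q * (D * Y) * Qᵀ := by
    calc Q * D * Qᵀ * (Q * Y * Qᵀ) = Q * D * (Qᵀ * Q) * Y * Qᵀ := by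
          simp only [Matrix.mul_assoc]
      _ = _ := by rw [h1, Matrix.mul_one]; simp only [Matrix.mul_assoc]
  have e2 : Q * Y * Qᵀ * (Q * D * Qᵀ) = Q * (Y * D) * Qᵀ := by
    calc Q * Y * Qᵀ * (Q * D * Qᵀ) = Q * Y * (Qᵀ * Q) * D * Qᵀ := by
          simp only [Matrix.mul_assoc]
      _ = _ := by rw [h1, Matrix.mul_one]; simp only [Matrix.mul_assoc]
  rw [e1, e2, ← Matrix.add_mul, ← Matrix.mul_add, hent, Matrix.mul_vecMulVec, Matrix.vecMulVec_mul,
    hQz, ← Matrix.mulVec_transpose, Matrix.transpose_transpose, hQz]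

/-- The entries of any solution in the eigenbasis. -/
theorem lyap_entry (h1 : Qᵀ * Q = 1) (h2 : Q * Qᵀ = 1)
    (h3 : F = Q * diagonal f * Qᵀ) (n : ℤ) (ξ : Vec d) {Ω : Mat d}
    (hΩ : lyap F n Ω = vecMulVec ξ ξ) (j k : Fin d) :
    (f j + f k - 2 * (n : ℝ)) * (Qᵀ * Ω * Q) j k = (Qᵀ *ᵥ ξ) j * (Qᵀ *ᵥ ξ) k := by
  have hG := shift_eq h2 h3 n
  set D : Mat d := diagonal (fun j => f j - (n : ℝ)) with hD
  have hconj : Qᵀ * (lyap F n Ω) * Q = D * (Qᵀ * Ω * Q) + (Qᵀ * Ω * Q) * D := by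
    unfold lyap
    rw [hG, Matrix.mul_add, Matrix.add_mul]
    congr 1
    · calc Qᵀ * (Q * D * Qᵀ * Ω) * Q = (Qᵀ * Q) * D * (Qᵀ * Ω * Q) := by
            simp only [Matrix.mul_assoc]
        _ = _ := by rw [h1, Matrix.one_mul]
    · calc Qᵀ * (Ω * (Q * D * Qᵀ)) * Q = (Qᵀ * Ω * Q) * D * (Qᵀ * Q) := by
            simp only [Matrix.mul_assoc]
        _ = _ := by rw [h1, Matrix.mul_one]
  rw [hΩ, Matrix.mul_vecMulVec, Matrix.vecMulVec_mul, ← Matrix.mulVec_transpose] at hconj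
  have := congrFun (congrFun hconj j) k
  simp only [Matrix.add_apply, hD, Matrix.diagonal_mul, Matrix.mul_diagonal, vecMulVec_apply] at this
  rw [this]
  ring

/-- Orthogonal invariance of the dot product. -/
theorem dot_transpose (h2 : Q * Qᵀ = 1) (u w : Vec d) : (Qᵀ *ᵥ u) ⬝ᵥ (Qᵀ *ᵥ w) = u ⬝ᵥ w := by
  rw [Matrix.dotProduct_mulVec, ← Matrix.mulVec_transpose, Matrix.transpose_transpose,
    Matrix.mulVec_mulVec, h2, Matrix.one_mulVec]

end conj

/-- The scalar inequality behind the pointwise bound. -/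
theorem scalar_ineq {κ ε : ℝ} (M : ℕ)
    (hM : ∀ A B : ℝ, 2 * ε ≤ A → A ≤ 2 - 2 * ε → 2 * ε ≤ B → B ≤ 2 - 2 * ε →
      κ ≤ DM M A B - SM M A * SM M B)
    (p : Fin d → ℝ) (hp : ∀ k, 0 ≤ p k) (A : Fin d → ℝ)
    (hA : ∀ k, 2 * ε ≤ A k ∧ A k ≤ 2 - 2 * ε) :
    κ * (∑ k, p k) ^ 2 ≤
      ∑ n ∈ Icc (-(M : ℤ)) (M : ℤ), (∑ k, p k * (1 / (A k - 2 * (n : ℝ)))) ^ 2 -
        (∑ n ∈ Icc (-(M : ℤ)) (M : ℤ), ∑ k, p k * (1 / (A k - 2 * (n : ℝ)))) ^ 2 := by
  have e1 : ∑ n ∈ Icc (-(M : ℤ)) (M : ℤ), (∑ k, p k * (1 / (A k - 2 * (n : ℝ)))) ^ 2 =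
      ∑ k, ∑ l, p k * p l * DM M (A k) (A l) := by
    unfold DM
    calc ∑ n ∈ Icc (-(M : ℤ)) (M : ℤ), (∑ k, p k * (1 / (A k - 2 * (n : ℝ)))) ^ 2
        = ∑ n ∈ Icc (-(M : ℤ)) (M : ℤ), ∑ k, ∑ l, p k * p l *
            (1 / ((A k - 2 * (n : ℝ)) * (A l - 2 * (n : ℝ)))) := by
          apply Finset.sum_congr rfl
          intro n _
          rw [sq, Finset.sum_mul_sum]
          apply Finset.sum_congr rfl
          intro k _
          apply Finset.sum_congr rfl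
          intro l _
          rw [one_div, one_div, one_div, mul_inv]
          ring
      _ = ∑ k, ∑ n ∈ Icc (-(M : ℤ)) (M : ℤ), ∑ l, p k * p l *
            (1 / ((A k - 2 * (n : ℝ)) * (A l - 2 * (n : ℝ)))) := Finset.sum_comm
      _ = ∑ k, ∑ l, ∑ n ∈ Icc (-(M : ℤ)) (M : ℤ), p k * p l *
            (1 / ((A k - 2 * (n : ℝ)) * (A l - 2 * (n : ℝ)))) := by
          apply Finset.sum_congr rfl
          intro k _
          exact Finset.sum_comm
      _ = _ := by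
          apply Finset.sum_congr rfl
          intro k _
          apply Finset.sum_congr rfl
          intro l _
          rw [Finset.mul_sum]
  have e2 : ∑ n ∈ Icc (-(M : ℤ)) (M : ℤ), ∑ k, p k * (1 / (A k - 2 * (n : ℝ))) =
      ∑ k, p k * SM M (A k) := by
    unfold SM
    rw [Finset.sum_comm]
    apply Finset.sum_congr rfl
    intro k _
    rw [Finset.mul_sum]
  rw [e1, e2, sq, Finset.sum_mul_sum, sq, Finset.sum_mul_sum, Finset.mul_sum, ← Finset.sum_sub_distrib]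
  apply Finset.sum_le_sum
  intro k _
  rw [Finset.mul_sum, ← Finset.sum_sub_distrib]
  apply Finset.sum_le_sum
  intro l _
  have h := hM (A k) (A l) (hA k).1 (hA k).2 (hA l).1 (hA l).2
  have hpp : 0 ≤ p k * p l := mul_nonneg (hp k) (hp l)
  have := mul_le_mul_of_nonneg_left h hpp
  calc κ * (p k * p l) = p k * p l * κ := by ring
    _ ≤ p k * p l * (DM M (A k) (A l) - SM M (A k) * SM M (A l)) := this
    _ = _ := by ring

/-- S3: the pointwise inequality, via the spectral theorem for `F`.  In an eigenbasis of `F`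
the entries of `Ωₙ` are `zⱼ zₖ / (fⱼ + fₖ - 2n)`, and the left side is a sum over triples `(j,k,l)`
of `pⱼ pₖ pₗ` times `DM M A B - SM M A * SM M B` with `A = fⱼ+fₖ`, `B = fⱼ+fₗ`. -/
theorem lyap_ineq {ε κ : ℝ} {F : Mat d} (hQ : QBound ε F) (hε : 0 < ε) (M : ℕ)
    (hM : ∀ A B : ℝ, 2 * ε ≤ A → A ≤ 2 - 2 * ε → 2 * ε ≤ B → B ≤ 2 - 2 * ε →
      κ ≤ DM M A B - SM M A * SM M B) (ξ : Vec d) :
    let a : ℤ → Vec d := fun n => sol F n (vecMulVec ξ ξ) *ᵥ ξ
    let s : Vec d := ∑ n ∈ Finset.Icc (-(M : ℤ)) (M : ℤ), a n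
    κ * (ξ ⬝ᵥ ξ) ^ 3 ≤ (∑ n ∈ Finset.Icc (-(M : ℤ)) (M : ℤ), a n ⬝ᵥ a n) - s ⬝ᵥ s := by
  intro a s
  obtain ⟨Q, f, h1, h2, h3, hf⟩ := eigen_data hQ
  set z : Vec d := Qᵀ *ᵥ ξ with hz
  set p : Fin d → ℝ := fun k => z k * z k with hp
  have hp0 : ∀ k, 0 ≤ p k := fun k => mul_self_nonneg _
  have hdot : ∀ u w : Vec d, (Qᵀ *ᵥ u) ⬝ᵥ (Qᵀ *ᵥ w) = u ⬝ᵥ w := dot_transpose h2
  have hxi : ξ ⬝ᵥ ξ = ∑ k, p k := by
    rw [← hdot ξ ξ]
    rfl
  -- the coordinates of `a n`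
  set b : ℤ → Fin d → ℝ := fun n j => ∑ k, p k * (1 / (f j + f k - 2 * (n : ℝ))) with hb
  have hcoord : ∀ n : ℤ, ∀ j, (Qᵀ *ᵥ a n) j = z j * b n j := by
    intro n j
    have hspec : lyap F n (sol F n (vecMulVec ξ ξ)) = vecMulVec ξ ξ := by
      unfold sol
      have hex := lyap_exists hε h1 h2 h3 hf n ξ
      rw [dif_pos hex]
      exact hex.choose_spec
    set W := sol F n (vecMulVec ξ ξ) with hW
    have hent := lyap_entry h1 h2 h3 n ξ hspec
    have e : Qᵀ *ᵥ a n = (Qᵀ * W * Q) *ᵥ z := by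
      simp only [a, hz, Matrix.mulVec_mulVec]
      rw [Matrix.mul_assoc (Qᵀ * W), h2, Matrix.mul_one]
    rw [e]
    simp only [Matrix.mulVec, dotProduct, hb]
    rw [Finset.mul_sum]
    apply Finset.sum_congr rfl
    intro k _
    have hne := denom_ne hε hf j k n
    have := hent j k
    have e2 : (Qᵀ * W * Q) j k = z j * z k / (f j + f k - 2 * (n : ℝ)) := by
      rw [eq_div_iff hne, mul_comm]
      exact this
    rw [e2]
    simp only [hp]
    field_simp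
  have hcoords : ∀ j, (Qᵀ *ᵥ s) j =
      z j * ∑ n ∈ Icc (-(M : ℤ)) (M : ℤ), b n j := by
    intro j
    simp only [s, Matrix.mulVec_sum, Finset.sum_apply, hcoord, Finset.mul_sum]
  have hterm : ∀ n : ℤ, a n ⬝ᵥ a n = ∑ j, p j * (b n j) ^ 2 := by
    intro n
    rw [← hdot (a n) (a n)]
    simp only [dotProduct, hcoord, hp]
    apply Finset.sum_congr rfl
    intro j _
    ring
  have hsterm : s ⬝ᵥ s = ∑ j, p j * (∑ n ∈ Icc (-(M : ℤ)) (M : ℤ), b n j) ^ 2 := by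
    rw [← hdot s s]
    simp only [dotProduct, hcoords, hp]
    apply Finset.sum_congr rfl
    intro j _
    ring
  rw [hsterm, hxi]
  simp_rw [hterm]
  rw [Finset.sum_comm, ← Finset.sum_sub_distrib]
  have e3 : κ * (∑ k, p k) ^ 3 = ∑ j, p j * (κ * (∑ k, p k) ^ 2) := by
    rw [← Finset.sum_mul]
    ring
  rw [e3]
  apply Finset.sum_le_sum
  intro j _
  have hA : ∀ k, 2 * ε ≤ f j + f k ∧ f j + f k ≤ 2 - 2 * ε := by
    intro k
    have h4 := hf j
    have h5 := hf k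
    constructor <;> linarith [h4.1, h4.2, h5.1, h5.2]
  have h6 := scalar_ineq M hM p hp0 (fun k => f j + f k) hA
  have h7 := mul_le_mul_of_nonneg_left h6 (hp0 j)
  rw [mul_sub, Finset.mul_sum] at h7
  simpa only [hb] using h7

end Vale.Agent.Lib.P371.Sharp
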