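import Vale.Agent.Lib.P371.Sharp.Defs

/-!
# The shifted Lyapunov operator: coercivity, solutions and bounds.
-/

open Matrix

namespace Vale.Agent.Lib.P371.Sharp

variable {d : ℕ}

lemma hs_self_nonneg (Z : Mat d) : 0 ≤ hs Z Z := by
  unfold hs
  exact Finset.sum_nonneg fun i _ => Finset.sum_nonneg fun j _ => mul_self_nonneg _

lemma hs_comm (A B : Mat d) : hs A B = hs B A := by
  unfold hs
  exact Finset.sum_congr rfl fun i _ => Finset.sum_congr rfl fun j _ => mul_comm _ _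

lemma hs_add_right (A B C : Mat d) : hs A (B + C) = hs A B + hs A C := by
  unfold hs
  simp only [Matrix.add_apply, mul_add, Finset.sum_add_distrib]

lemma hs_add_left (A B C : Mat d) : hs (A + B) C = hs A C + hs B C := by
  unfold hs
  simp only [Matrix.add_apply, add_mul, Finset.sum_add_distrib]

lemma hs_sub_right (A B C : Mat d) : hs A (B - C) = hs A B - hs A C := by
  unfold hs
  simp only [Matrix.sub_apply, mul_sub, Finset.sum_sub_distrib]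

lemma hs_sub_left (A B C : Mat d) : hs (A - B) C = hs A C - hs B C := by
  unfold hs
  simp only [Matrix.sub_apply, sub_mul, Finset.sum_sub_distrib]

lemma hs_smul_left (c : ℝ) (A B : Mat d) : hs (c • A) B = c * hs A B := by
  unfold hs
  simp only [Matrix.smul_apply, smul_eq_mul, Finset.mul_sum, mul_assoc]

lemma hs_smul_right (c : ℝ) (A B : Mat d) : hs A (c • B) = c * hs A B := by
  rw [hs_comm, hs_smul_left, hs_comm]

lemma hs_zero_right (A : Mat d) : hs A 0 = 0 := by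
  unfold hs; simp

lemma hs_zero_left (A : Mat d) : hs 0 A = 0 := by
  unfold hs; simp

/-- Entries are controlled by the Hilbert-Schmidt norm. -/
lemma entry_sq_le_hs (Z : Mat d) (i j : Fin d) : Z i j ^ 2 ≤ hs Z Z := by
  unfold hs
  calc Z i j ^ 2 = Z i j * Z i j := by ring
    _ ≤ ∑ j', Z i j' * Z i j' :=
        Finset.single_le_sum (f := fun j' => Z i j' * Z i j')
          (fun j' _ => mul_self_nonneg _) (Finset.mem_univ j)
    _ ≤ ∑ i', ∑ j', Z i' j' * Z i' j' :=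
        Finset.single_le_sum (f := fun i' => ∑ j', Z i' j' * Z i' j')
          (fun i' _ => Finset.sum_nonneg fun j' _ => mul_self_nonneg _) (Finset.mem_univ i)

lemma eq_zero_of_hs_self_le {Z : Mat d} (h : hs Z Z ≤ 0) : Z = 0 := by
  ext i j
  have h1 := entry_sq_le_hs Z i j
  have h2 : Z i j ^ 2 ≤ 0 := le_trans h1 h
  have h3 : Z i j ^ 2 = 0 := le_antisymm h2 (sq_nonneg _)
  simpa using h3

/-- Cauchy-Schwarz for the Hilbert-Schmidt pairing. -/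
lemma hs_sq_le (A B : Mat d) : hs A B ^ 2 ≤ hs A A * hs B B := by
  have h := Finset.sum_mul_sq_le_sq_mul_sq (Finset.univ : Finset (Fin d × Fin d))
    (fun p => A p.1 p.2) (fun p => B p.1 p.2)
  simp only [Fintype.sum_prod_type] at h
  unfold hs
  calc (∑ i, ∑ j, A i j * B i j) ^ 2 ≤ _ := h
    _ = _ := by
      congr 1
      · exact Finset.sum_congr rfl fun i _ => Finset.sum_congr rfl fun j _ => by ring
      · exact Finset.sum_congr rfl fun i _ => Finset.sum_congr rfl fun j _ => by ring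

/-- Cauchy-Schwarz in absolute value form, scaled. -/
lemma abs_hs_le (A B : Mat d) : |hs A B| ≤ Real.sqrt (hs A A) * Real.sqrt (hs B B) := by
  rw [← Real.sqrt_mul (hs_self_nonneg A)]
  exact Real.abs_le_sqrt (hs_sq_le A B)

section quad

variable (G Z : Mat d)

private lemma hs_mul_left : hs Z (G * Z) = ∑ j, (fun i => Z i j) ⬝ᵥ (G *ᵥ fun i => Z i j) := by
  unfold hs
  simp only [dotProduct, mulVec, Matrix.mul_apply]
  exact Finset.sum_comm

private lemma hs_mul_right (hG : G.IsSymm) : hs Z (Z * G) = ∑ i, Z i ⬝ᵥ (G *ᵥ Z i) := by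
  unfold hs
  simp only [dotProduct, mulVec, Matrix.mul_apply]
  refine Finset.sum_congr rfl fun i _ => Finset.sum_congr rfl fun j _ => ?_
  congr 1
  refine Finset.sum_congr rfl fun k _ => ?_
  rw [mul_comm, hG.apply]

private lemma hs_self_cols : hs Z Z = ∑ j, (fun i => Z i j) ⬝ᵥ (fun i => Z i j) := by
  unfold hs
  simp only [dotProduct]
  exact Finset.sum_comm

private lemma hs_self_rows : hs Z Z = ∑ i, Z i ⬝ᵥ Z i := by
  unfold hs
  simp only [dotProduct]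

end quad

lemma shift_isSymm {ε : ℝ} {F : Mat d} (hQ : QBound ε F) (n : ℤ) :
    (F - (n : ℝ) • (1 : Mat d)).IsSymm := by
  have h1 : F.IsSymm := hQ.1
  unfold Matrix.IsSymm at h1 ⊢
  rw [Matrix.transpose_sub, Matrix.transpose_smul, Matrix.transpose_one, h1]

private lemma shift_quad (F : Mat d) (n : ℤ) (v : Vec d) :
    v ⬝ᵥ ((F - (n : ℝ) • (1 : Mat d)) *ᵥ v) = v ⬝ᵥ (F *ᵥ v) - n * (v ⬝ᵥ v) := by
  rw [Matrix.sub_mulVec, Matrix.smul_mulVec, Matrix.one_mulVec, dotProduct_sub, dotProduct_smul,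
    smul_eq_mul]

/-- Coercivity of the shifted Lyapunov operator. -/
lemma lyap_coercive {ε : ℝ} {F : Mat d} (hQ : QBound ε F) (hε : 0 < ε) (n : ℤ) (Z : Mat d) :
    2 * ε * hs Z Z ≤ |hs Z (lyap F n Z)| := by
  have hG := shift_isSymm hQ n
  have hsplit : hs Z (lyap F n Z) =
      ∑ j, (fun i => Z i j) ⬝ᵥ ((F - (n : ℝ) • (1 : Mat d)) *ᵥ fun i => Z i j)
        + ∑ i, Z i ⬝ᵥ ((F - (n : ℝ) • (1 : Mat d)) *ᵥ Z i) := by
    unfold lyap
    rw [hs_add_right, hs_mul_left, hs_mul_right _ _ hG]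
  rcases le_or_gt n 0 with hn | hn
  · have hn' : (n : ℝ) ≤ 0 := by exact_mod_cast hn
    have hq : ∀ v : Vec d, ε * (v ⬝ᵥ v) ≤ v ⬝ᵥ ((F - (n : ℝ) • (1 : Mat d)) *ᵥ v) := by
      intro v
      rw [shift_quad]
      have h1 := (hQ.2 v).1
      have h2 : 0 ≤ v ⬝ᵥ v := Finset.sum_nonneg fun i _ => mul_self_nonneg _
      nlinarith
    have h1 : ε * hs Z Z ≤ ∑ j, (fun i => Z i j) ⬝ᵥ ((F - (n : ℝ) • (1 : Mat d)) *ᵥ fun i => Z i j) := by
      rw [hs_self_cols, Finset.mul_sum]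
      exact Finset.sum_le_sum fun j _ => hq _
    have h2 : ε * hs Z Z ≤ ∑ i, Z i ⬝ᵥ ((F - (n : ℝ) • (1 : Mat d)) *ᵥ Z i) := by
      rw [hs_self_rows, Finset.mul_sum]
      exact Finset.sum_le_sum fun j _ => hq _
    rw [hsplit]
    refine le_trans ?_ (le_abs_self _)
    linarith
  · have hn' : (1 : ℝ) ≤ n := by exact_mod_cast hn
    have hq : ∀ v : Vec d, v ⬝ᵥ ((F - (n : ℝ) • (1 : Mat d)) *ᵥ v) ≤ -(ε * (v ⬝ᵥ v)) := by
      intro v
      rw [shift_quad]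
      have h1 := (hQ.2 v).2
      have h2 : 0 ≤ v ⬝ᵥ v := Finset.sum_nonneg fun i _ => mul_self_nonneg _
      nlinarith
    have h1 : ∑ j, (fun i => Z i j) ⬝ᵥ ((F - (n : ℝ) • (1 : Mat d)) *ᵥ fun i => Z i j)
        ≤ -(ε * hs Z Z) := by
      rw [hs_self_cols, Finset.mul_sum, ← Finset.sum_neg_distrib]
      exact Finset.sum_le_sum fun j _ => hq _
    have h2 : ∑ i, Z i ⬝ᵥ ((F - (n : ℝ) • (1 : Mat d)) *ᵥ Z i) ≤ -(ε * hs Z Z) := by
      rw [hs_self_rows, Finset.mul_sum, ← Finset.sum_neg_distrib]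
      exact Finset.sum_le_sum fun j _ => hq _
    rw [hsplit]
    refine le_trans ?_ (neg_le_abs _)
    linarith

lemma lyap_add (F : Mat d) (n : ℤ) (A B : Mat d) : lyap F n (A + B) = lyap F n A + lyap F n B := by
  unfold lyap
  generalize F - (n : ℝ) • (1 : Mat d) = G
  rw [Matrix.mul_add, Matrix.add_mul]
  abel

lemma lyap_sub (F : Mat d) (n : ℤ) (A B : Mat d) : lyap F n (A - B) = lyap F n A - lyap F n B := by
  unfold lyap
  generalize F - (n : ℝ) • (1 : Mat d) = G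
  rw [Matrix.mul_sub, Matrix.sub_mul]
  abel

lemma lyap_smul (F : Mat d) (n : ℤ) (c : ℝ) (A : Mat d) : lyap F n (c • A) = c • lyap F n A := by
  unfold lyap
  rw [Matrix.mul_smul, Matrix.smul_mul, smul_add]

/-- The Lyapunov operator as a linear map. -/
noncomputable def lyapL (F : Mat d) (n : ℤ) : Mat d →ₗ[ℝ] Mat d where
  toFun := lyap F n
  map_add' := lyap_add F n
  map_smul' := fun c A => by simpa using lyap_smul F n c A

private lemma lyap_inj {ε : ℝ} {F : Mat d} (hQ : QBound ε F) (hε : 0 < ε) (n : ℤ) {Z : Mat d}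
    (h : lyap F n Z = 0) : Z = 0 := by
  have h1 := lyap_coercive hQ hε n Z
  rw [h, hs_zero_right, abs_zero] at h1
  apply eq_zero_of_hs_self_le
  nlinarith

private lemma lyap_exists {ε : ℝ} {F : Mat d} (hQ : QBound ε F) (hε : 0 < ε) (n : ℤ) (X : Mat d) :
    ∃ Ω, lyap F n Ω = X := by
  have hinj : Function.Injective (lyapL F n) := by
    rw [← LinearMap.ker_eq_bot, LinearMap.ker_eq_bot']
    intro Z hZ
    exact lyap_inj hQ hε n hZ
  have hsurj : Function.Surjective (lyapL F n) := LinearMap.injective_iff_surjective.mp hinj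
  exact hsurj X

lemma sol_spec {ε : ℝ} {F : Mat d} (hQ : QBound ε F) (hε : 0 < ε) (n : ℤ) (X : Mat d) :
    lyap F n (sol F n X) = X := by
  unfold sol
  rw [dif_pos (lyap_exists hQ hε n X)]
  exact (lyap_exists hQ hε n X).choose_spec

lemma sol_unique {ε : ℝ} {F : Mat d} (hQ : QBound ε F) (hε : 0 < ε) (n : ℤ) {Ω X : Mat d}
    (h : lyap F n Ω = X) : Ω = sol F n X := by
  have h1 : lyap F n (Ω - sol F n X) = 0 := by
    rw [lyap_sub, h, sol_spec hQ hε, sub_self]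
  exact sub_eq_zero.mp (lyap_inj hQ hε n h1)

lemma sol_symm {ε : ℝ} {F : Mat d} (hQ : QBound ε F) (hε : 0 < ε) (n : ℤ) {X : Mat d}
    (hX : X.IsSymm) : (sol F n X).IsSymm := by
  have hG := shift_isSymm hQ n
  have h1 : lyap F n (sol F n X)ᵀ = X := by
    have h2 := congrArg Matrix.transpose (sol_spec hQ hε n X)
    rw [show (X : Mat d)ᵀ = X from hX] at h2
    refine Eq.trans ?_ h2
    unfold lyap
    rw [Matrix.transpose_add, Matrix.transpose_mul, Matrix.transpose_mul, hG, add_comm]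
  exact sol_unique hQ hε n h1

/-- `‖Ω‖_HS ≤ ‖X‖_HS/(2ε)`, in the form `2ε √⟨Ω,Ω⟩ ≤ √⟨X,X⟩`. -/
lemma sol_bound_sqrt {ε : ℝ} {F : Mat d} (hQ : QBound ε F) (hε : 0 < ε) (n : ℤ) (X : Mat d) :
    2 * ε * Real.sqrt (hs (sol F n X) (sol F n X)) ≤ Real.sqrt (hs X X) := by
  set Ω := sol F n X with hΩ
  have h1 := lyap_coercive hQ hε n Ω
  rw [sol_spec hQ hε] at h1
  have h2 := abs_hs_le Ω X
  have h3 := Real.sqrt_nonneg (hs Ω Ω)
  have h4 := Real.sqrt_nonneg (hs X X)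
  have h5 : Real.sqrt (hs Ω Ω) * Real.sqrt (hs Ω Ω) = hs Ω Ω := Real.mul_self_sqrt (hs_self_nonneg Ω)
  rcases eq_or_lt_of_le h3 with h0 | h0
  · rw [← h0]; simp [h4]
  · have h6 : Real.sqrt (hs Ω Ω) * (2 * ε * Real.sqrt (hs Ω Ω))
        ≤ Real.sqrt (hs Ω Ω) * Real.sqrt (hs X X) := by
      nlinarith
    exact le_of_mul_le_mul_left h6 h0

/-- `‖Ω‖_HS ≤ ‖X‖_HS/(2ε)`. -/
lemma sol_bound {ε : ℝ} {F : Mat d} (hQ : QBound ε F) (hε : 0 < ε) (n : ℤ) (X : Mat d) :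
    4 * ε ^ 2 * hs (sol F n X) (sol F n X) ≤ hs X X := by
  have h := sol_bound_sqrt hQ hε n X
  have h0 : 0 ≤ 2 * ε * Real.sqrt (hs (sol F n X) (sol F n X)) :=
    mul_nonneg (by positivity) (Real.sqrt_nonneg _)
  have h1 := mul_self_le_mul_self h0 h
  rw [Real.mul_self_sqrt (hs_self_nonneg X)] at h1
  have h5 := Real.mul_self_sqrt (hs_self_nonneg (sol F n X))
  nlinarith

lemma hs_vecMulVec_self (ξ : Vec d) : hs (vecMulVec ξ ξ) (vecMulVec ξ ξ) = (ξ ⬝ᵥ ξ) ^ 2 := by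
  unfold hs
  simp only [vecMulVec_apply, dotProduct]
  rw [sq, Finset.sum_mul_sum]
  exact Finset.sum_congr rfl fun i _ => Finset.sum_congr rfl fun j _ => by ring

/-- `ξ·Ωξ = ⟨Ω, ξ ξᵀ⟩`. -/
lemma dot_mulVec_eq_hs (Ω : Mat d) (ξ : Vec d) : ξ ⬝ᵥ (Ω *ᵥ ξ) = hs Ω (vecMulVec ξ ξ) := by
  unfold hs
  simp only [vecMulVec_apply, dotProduct, mulVec, Finset.mul_sum]
  exact Finset.sum_congr rfl fun i _ => Finset.sum_congr rfl fun j _ => by ring

/-- `|ξ·Ωξ| ≤ |ξ|⁴/(2ε)` for `Ω` the solution with right side `ξ ξᵀ`. -/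
lemma quad_bound {ε : ℝ} {F : Mat d} (hQ : QBound ε F) (hε : 0 < ε) (n : ℤ) (ξ : Vec d) :
    |ξ ⬝ᵥ (sol F n (vecMulVec ξ ξ) *ᵥ ξ)| ≤ (ξ ⬝ᵥ ξ) ^ 2 / (2 * ε) := by
  rw [dot_mulVec_eq_hs, le_div_iff₀ (by positivity)]
  set X := vecMulVec ξ ξ with hX
  set Ω := sol F n X with hΩ
  have h1 := abs_hs_le Ω X
  have h2 := sol_bound_sqrt hQ hε n X
  rw [← hΩ] at h2
  have h3 := Real.sqrt_nonneg (hs X X)
  have h4 := Real.sqrt_nonneg (hs Ω Ω)
  have h5 : Real.sqrt (hs X X) * Real.sqrt (hs X X) = hs X X := Real.mul_self_sqrt (hs_self_nonneg X)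
  rw [← hs_vecMulVec_self, ← hX, ← h5]
  calc |hs Ω X| * (2 * ε) ≤ Real.sqrt (hs Ω Ω) * Real.sqrt (hs X X) * (2 * ε) := by
        exact mul_le_mul_of_nonneg_right h1 (by positivity)
    _ = (2 * ε * Real.sqrt (hs Ω Ω)) * Real.sqrt (hs X X) := by ring
    _ ≤ _ := mul_le_mul_of_nonneg_right h2 h3

/-- `|Ωξ|² ≤ ⟨Ω,Ω⟩ |ξ|²`. -/
lemma mulVec_sq_le (Ω : Mat d) (ξ : Vec d) : (Ω *ᵥ ξ) ⬝ᵥ (Ω *ᵥ ξ) ≤ hs Ω Ω * (ξ ⬝ᵥ ξ) := by
  unfold hs
  rw [Finset.sum_mul]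
  simp only [dotProduct, mulVec]
  refine Finset.sum_le_sum fun i _ => ?_
  have h := Finset.sum_mul_sq_le_sq_mul_sq (Finset.univ : Finset (Fin d)) (fun j => Ω i j) ξ
  have e1 : ∑ j, Ω i j * Ω i j = ∑ j, Ω i j ^ 2 := by simp [sq]
  have e2 : ∑ j, ξ j * ξ j = ∑ j, ξ j ^ 2 := by simp [sq]
  rw [e1, e2, ← sq]
  exact h

/-- `|Ωξ|² ≤ |ξ|⁶/(4ε²)`. -/
lemma vec_bound {ε : ℝ} {F : Mat d} (hQ : QBound ε F) (hε : 0 < ε) (n : ℤ) (ξ : Vec d) :
    (sol F n (vecMulVec ξ ξ) *ᵥ ξ) ⬝ᵥ (sol F n (vecMulVec ξ ξ) *ᵥ ξ)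
      ≤ (ξ ⬝ᵥ ξ) ^ 3 / (4 * ε ^ 2) := by
  rw [le_div_iff₀ (by positivity)]
  have h1 := mulVec_sq_le (sol F n (vecMulVec ξ ξ)) ξ
  have h2 := sol_bound hQ hε n (vecMulVec ξ ξ)
  rw [hs_vecMulVec_self] at h2
  have h3 : 0 ≤ ξ ⬝ᵥ ξ := Finset.sum_nonneg fun i _ => mul_self_nonneg _
  have h4 : 0 < 4 * ε ^ 2 := by positivity
  calc _ ≤ hs (sol F n (vecMulVec ξ ξ)) (sol F n (vecMulVec ξ ξ)) * (ξ ⬝ᵥ ξ) * (4 * ε ^ 2) :=
        mul_le_mul_of_nonneg_right h1 h4.le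
    _ = (4 * ε ^ 2 * hs (sol F n (vecMulVec ξ ξ)) (sol F n (vecMulVec ξ ξ))) * (ξ ⬝ᵥ ξ) := by ring
    _ ≤ (ξ ⬝ᵥ ξ) ^ 2 * (ξ ⬝ᵥ ξ) := mul_le_mul_of_nonneg_right h2 h3
    _ = _ := by ring

end Vale.Agent.Lib.P371.Sharp
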