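import Vale.Agent.Lib.P371.Sharp.Lyap

/-!
# Derivative of the calibrator term along the path.

`b(y) - b(x) = ⟨Ωₓ, X_y - Xₓ⟩ - ½⟨Ωₓ, S_y⟩ + ½⟨Ω_y - Ωₓ, R_y⟩`, with `S_y = E Ωₓ + Ωₓ E`,
`E = F y - F x` and `R_y = X_y - Xₓ - S_y`; the last term is quadratically small.
-/

open Matrix Filter Topology

namespace Vale.Agent.Lib.P371.Sharp

variable {d : ℕ}

lemma hs_eq_trace (A B : Mat d) : hs A B = (Aᵀ * B).trace := by
  unfold hs
  simp only [Matrix.trace, Matrix.diag_apply, Matrix.mul_apply, Matrix.transpose_apply]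
  exact Finset.sum_comm

lemma hs_mul_left_adj (G A B : Mat d) : hs A (G * B) = hs (Gᵀ * A) B := by
  rw [hs_eq_trace, hs_eq_trace, Matrix.transpose_mul, Matrix.transpose_transpose, Matrix.mul_assoc]

lemma hs_mul_right_adj (G A B : Mat d) : hs A (B * G) = hs (A * Gᵀ) B := by
  rw [hs_eq_trace, hs_eq_trace, Matrix.transpose_mul, Matrix.transpose_transpose,
    Matrix.mul_assoc, ← Matrix.mul_assoc, Matrix.trace_mul_comm, ← Matrix.mul_assoc]

/-- The Lyapunov operator is self-adjoint for the Hilbert-Schmidt pairing. -/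
lemma hs_lyap_adj {ε : ℝ} {F : Mat d} (hQ : QBound ε F) (n : ℤ) (A B : Mat d) :
    hs A (lyap F n B) = hs (lyap F n A) B := by
  have hG := shift_isSymm hQ n
  unfold lyap
  rw [hs_add_right, hs_add_left, hs_mul_left_adj, hs_mul_right_adj, hG]

/-- Changing `F` in the Lyapunov operator. -/
lemma lyap_change (F₁ F₂ : Mat d) (n : ℤ) (Z : Mat d) :
    lyap F₂ n Z = lyap F₁ n Z + ((F₂ - F₁) * Z + Z * (F₂ - F₁)) := by
  unfold lyap
  have h : F₂ - (n : ℝ) • (1 : Mat d) = (F₁ - (n : ℝ) • (1 : Mat d)) + (F₂ - F₁) := by abel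
  rw [h, Matrix.add_mul, Matrix.mul_add]
  abel

/-- The perturbation identity. -/
lemma b_identity {ε : ℝ} {F₁ F₂ Ω₁ Ω₂ X₁ X₂ : Mat d} (hQ₂ : QBound ε F₂) {n : ℤ}
    (h₁ : lyap F₁ n Ω₁ = X₁) (h₂ : lyap F₂ n Ω₂ = X₂) :
    let S := (F₂ - F₁) * Ω₁ + Ω₁ * (F₂ - F₁)
    let R := X₂ - X₁ - S
    lyap F₂ n (Ω₂ - Ω₁) = R ∧
    (1 / 2 : ℝ) * hs Ω₂ X₂ = (1 / 2 : ℝ) * hs Ω₁ X₁ + (hs Ω₁ X₂ - hs Ω₁ X₁)
      - (1 / 2 : ℝ) * hs Ω₁ S + (1 / 2 : ℝ) * hs (Ω₂ - Ω₁) R := by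
  intro S R
  have hL1 : lyap F₂ n Ω₁ = X₁ + S := by
    rw [lyap_change F₁ F₂, h₁]
  have hLD : lyap F₂ n (Ω₂ - Ω₁) = R := by
    rw [lyap_sub, h₂, hL1]
    simp only [R]
    abel
  refine ⟨hLD, ?_⟩
  have hadj : hs (Ω₂ - Ω₁) (X₁ + S) = hs Ω₁ R := by
    rw [← hL1, hs_lyap_adj hQ₂, hLD, hs_comm]
  have hX2 : X₂ = (X₁ + S) + R := by
    simp only [R]; abel
  have hΩ2 : Ω₂ = Ω₁ + (Ω₂ - Ω₁) := by abel
  have h1 : hs Ω₂ X₂ = hs Ω₁ (X₁ + S) + hs Ω₁ R + (hs (Ω₂ - Ω₁) (X₁ + S) + hs (Ω₂ - Ω₁) R) := by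
    conv_lhs => rw [hΩ2, hX2]
    rw [hs_add_left, hs_add_right Ω₁ (X₁ + S) R, hs_add_right (Ω₂ - Ω₁) (X₁ + S) R]
  have h2 : hs Ω₁ R = hs Ω₁ X₂ - hs Ω₁ X₁ - hs Ω₁ S := by
    simp only [R]
    rw [hs_sub_right, hs_sub_right]
  have h3 : hs Ω₁ (X₁ + S) = hs Ω₁ X₁ + hs Ω₁ S := hs_add_right _ _ _
  rw [h1, hadj, h3, h2]
  ring

/-- The remainder bound. -/
lemma abs_hs_rem_le {ε : ℝ} {F D R : Mat d} (hQ : QBound ε F) (hε : 0 < ε) {n : ℤ}
    (h : lyap F n D = R) : |hs D R| ≤ hs R R / (2 * ε) := by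
  rw [le_div_iff₀ (by positivity)]
  have h0 : D = sol F n R := sol_unique hQ hε n h
  have h1 := abs_hs_le D R
  have h2 := sol_bound_sqrt hQ hε n R
  rw [← h0] at h2
  have h3 := Real.sqrt_nonneg (hs R R)
  have h5 : Real.sqrt (hs R R) * Real.sqrt (hs R R) = hs R R := Real.mul_self_sqrt (hs_self_nonneg R)
  calc |hs D R| * (2 * ε) ≤ Real.sqrt (hs D D) * Real.sqrt (hs R R) * (2 * ε) :=
        mul_le_mul_of_nonneg_right h1 (by positivity)
    _ = (2 * ε * Real.sqrt (hs D D)) * Real.sqrt (hs R R) := by ring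
    _ ≤ Real.sqrt (hs R R) * Real.sqrt (hs R R) := mul_le_mul_of_nonneg_right h2 h3
    _ = hs R R := h5

private lemma hasDerivAt_hs_const_left (A : Mat d) {M : ℝ → Mat d} {M' : Mat d} {x : ℝ}
    (h : ∀ i j, HasDerivAt (fun y => M y i j) (M' i j) x) :
    HasDerivAt (fun y => hs A (M y)) (hs A M') x := by
  unfold hs
  exact HasDerivAt.fun_sum fun i _ => HasDerivAt.fun_sum fun j _ => (h i j).const_mul (A i j)

private lemma hasDerivAt_hs_self {M : ℝ → Mat d} {M' : Mat d} {x : ℝ}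
    (h : ∀ i j, HasDerivAt (fun y => M y i j) (M' i j) x) (h0 : M x = 0) :
    HasDerivAt (fun y => hs (M y) (M y)) 0 x := by
  unfold hs
  have h1 : HasDerivAt (fun y => ∑ i, ∑ j, M y i j * M y i j)
      (∑ i, ∑ j, (M' i j * M x i j + M x i j * M' i j)) x :=
    HasDerivAt.fun_sum fun i _ => HasDerivAt.fun_sum fun j _ => (h i j).mul (h i j)
  have h2 : (∑ i, ∑ j, (M' i j * M x i j + M x i j * M' i j)) = 0 := by
    simp [h0]
  rwa [h2] at h1

private lemma hasDerivAt_zero_of_abs_le {r h : ℝ → ℝ} {x C : ℝ} (hr : r x = 0) (hh0 : h x = 0)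
    (hh : HasDerivAt h 0 x) (hle : ∀ y, |r y| ≤ C * |h y|) : HasDerivAt r 0 x := by
  rw [hasDerivAt_iff_isLittleO] at hh ⊢
  have h1 : (fun y => r y - r x - (y - x) • (0 : ℝ)) =O[𝓝 x]
      fun y => h y - h x - (y - x) • (0 : ℝ) := by
    refine Asymptotics.IsBigO.of_bound C (Eventually.of_forall fun y => ?_)
    simpa [hr, hh0, Real.norm_eq_abs] using hle y
  exact h1.trans_isLittleO hh

lemma hs_vecMulVec (Ω : Mat d) (u v : Vec d) : hs Ω (vecMulVec u v) = u ⬝ᵥ (Ω *ᵥ v) := by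
  unfold hs
  simp only [vecMulVec_apply, dotProduct, mulVec, Finset.mul_sum]
  exact Finset.sum_congr rfl fun i _ => Finset.sum_congr rfl fun j _ => by ring

lemma dot_symm_swap {Ω : Mat d} (hΩ : Ω.IsSymm) (u v : Vec d) :
    u ⬝ᵥ (Ω *ᵥ v) = v ⬝ᵥ (Ω *ᵥ u) := by
  rw [Matrix.dotProduct_mulVec, dotProduct_comm, ← Matrix.mulVec_transpose, hΩ]

/-- The derivative along the path. -/
theorem hasDerivAt_b {ε : ℝ} (hε : 0 < ε) (n : ℤ) {ξ ξ' : ℝ → Vec d}
    (hξ : ∀ x i, HasDerivAt (fun y => ξ y i) (ξ' x i) x) {F : ℝ → Mat d}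
    (hF : ∀ x i j, HasDerivAt (fun y => F y i j) (ξ x i * ξ x j) x)
    (hQ : ∀ x, QBound ε (F x)) (x : ℝ) :
    HasDerivAt (fun y => (1 / 2 : ℝ) * (ξ y ⬝ᵥ (sol (F y) n (vecMulVec (ξ y) (ξ y)) *ᵥ ξ y)))
      (2 * (ξ' x ⬝ᵥ (sol (F x) n (vecMulVec (ξ x) (ξ x)) *ᵥ ξ x))
        - (sol (F x) n (vecMulVec (ξ x) (ξ x)) *ᵥ ξ x) ⬝ᵥ
          (sol (F x) n (vecMulVec (ξ x) (ξ x)) *ᵥ ξ x)) x := by
  set X : ℝ → Mat d := fun y => vecMulVec (ξ y) (ξ y) with hXdef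
  set Ω : ℝ → Mat d := fun y => sol (F y) n (X y) with hΩdef
  have hspec : ∀ y, lyap (F y) n (Ω y) = X y := fun y => sol_spec (hQ y) hε n (X y)
  have hXsymm : (X x).IsSymm := Matrix.IsSymm.ext fun i j => mul_comm _ _
  have hΩsymm : (Ω x).IsSymm := sol_symm (hQ x) hε n hXsymm
  -- the derivative pieces
  set X' : Mat d := vecMulVec (ξ' x) (ξ x) + vecMulVec (ξ x) (ξ' x) with hX'
  set S' : Mat d := X x * Ω x + Ω x * X x with hS'
  have hXd : ∀ i j, HasDerivAt (fun y => X y i j) (X' i j) x := by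
    intro i j
    exact (hξ x i).fun_mul (hξ x j)
  have hEd : ∀ i k, HasDerivAt (fun y => (F y - F x) i k) (X x i k) x := by
    intro i k
    simpa [hXdef, vecMulVec_apply, Matrix.sub_apply] using (hF x i k).sub_const (F x i k)
  set S : ℝ → Mat d := fun y => (F y - F x) * Ω x + Ω x * (F y - F x) with hSdef
  have hSd : ∀ i j, HasDerivAt (fun y => S y i j) (S' i j) x := by
    intro i j
    simp only [hSdef, hS', Matrix.add_apply, Matrix.mul_apply]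
    exact (HasDerivAt.fun_sum fun k _ => (hEd i k).mul_const (Ω x k j)).add
      (HasDerivAt.fun_sum fun k _ => (hEd k j).const_mul (Ω x i k))
  set R : ℝ → Mat d := fun y => X y - X x - S y with hRdef
  have hRd : ∀ i j, HasDerivAt (fun y => R y i j) ((X' - S') i j) x := by
    intro i j
    simp only [hRdef, Matrix.sub_apply]
    exact ((hXd i j).sub_const (X x i j)).sub (hSd i j)
  have hRx : R x = 0 := by
    simp [hRdef, hSdef]
  -- the identity for every y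
  have hid : ∀ y, (1 / 2 : ℝ) * hs (Ω y) (X y) = (1 / 2 : ℝ) * hs (Ω x) (X x)
      + (hs (Ω x) (X y) - hs (Ω x) (X x)) - (1 / 2 : ℝ) * hs (Ω x) (S y)
      + (1 / 2 : ℝ) * hs (Ω y - Ω x) (R y) := fun y => (b_identity (hQ y) (hspec x) (hspec y)).2
  have hLD : ∀ y, lyap (F y) n (Ω y - Ω x) = R y := fun y =>
    (b_identity (hQ y) (hspec x) (hspec y)).1
  -- the remainder has zero derivative
  have hrem : HasDerivAt (fun y => (1 / 2 : ℝ) * hs (Ω y - Ω x) (R y)) 0 x := by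
    refine hasDerivAt_zero_of_abs_le (h := fun y => hs (R y) (R y)) (C := 1 / (4 * ε)) ?_ ?_
      (hasDerivAt_hs_self hRd hRx) ?_
    · simp [hRx, hs_zero_right]
    · simp [hRx, hs_zero_right]
    · intro y
      have h1 := abs_hs_rem_le (hQ y) hε (hLD y)
      rw [abs_of_nonneg (hs_self_nonneg (R y)), abs_mul, abs_of_pos (by norm_num : (0:ℝ) < 1 / 2)]
      calc (1 / 2 : ℝ) * |hs (Ω y - Ω x) (R y)| ≤ (1 / 2 : ℝ) * (hs (R y) (R y) / (2 * ε)) :=
            mul_le_mul_of_nonneg_left h1 (by norm_num)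
        _ = 1 / (4 * ε) * hs (R y) (R y) := by field_simp; ring
  -- assemble
  have hmain : HasDerivAt (fun y => (1 / 2 : ℝ) * hs (Ω x) (X x)
      + (hs (Ω x) (X y) - hs (Ω x) (X x)) - (1 / 2 : ℝ) * hs (Ω x) (S y)
      + (1 / 2 : ℝ) * hs (Ω y - Ω x) (R y))
      (hs (Ω x) X' - (1 / 2 : ℝ) * hs (Ω x) S' + 0) x := by
    have h1 := hasDerivAt_hs_const_left (Ω x) hXd
    have h2 := hasDerivAt_hs_const_left (Ω x) hSd
    have h3 := (((h1.sub_const (hs (Ω x) (X x))).const_add ((1 / 2 : ℝ) * hs (Ω x) (X x))).sub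
      (h2.const_mul (1 / 2 : ℝ))).add hrem
    exact h3
  have hval : hs (Ω x) X' - (1 / 2 : ℝ) * hs (Ω x) S' + 0 =
      2 * (ξ' x ⬝ᵥ (Ω x *ᵥ ξ x)) - (Ω x *ᵥ ξ x) ⬝ᵥ (Ω x *ᵥ ξ x) := by
    have e1 : hs (Ω x) X' = 2 * (ξ' x ⬝ᵥ (Ω x *ᵥ ξ x)) := by
      rw [hX', hs_add_right, hs_vecMulVec, hs_vecMulVec, dot_symm_swap hΩsymm (ξ x) (ξ' x)]
      ring
    have e2 : hs (Ω x) S' = 2 * ((Ω x *ᵥ ξ x) ⬝ᵥ (Ω x *ᵥ ξ x)) := by
      have e3 : X x * Ω x = vecMulVec (ξ x) (Ω x *ᵥ ξ x) := by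
        have : ξ x ᵥ* Ω x = Ω x *ᵥ ξ x := by
          rw [← Matrix.mulVec_transpose, hΩsymm]
        rw [hXdef]
        simp only
        rw [Matrix.vecMulVec_mul, this]
      have e4 : Ω x * X x = vecMulVec (Ω x *ᵥ ξ x) (ξ x) := by
        rw [hXdef]
        simp only
        rw [Matrix.mul_vecMulVec]
      rw [hS', hs_add_right, e3, e4, hs_vecMulVec, hs_vecMulVec,
        dot_symm_swap hΩsymm (ξ x) (Ω x *ᵥ ξ x)]
      ring
    rw [e1, e2]
    ring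
  rw [hval] at hmain
  refine hmain.congr_of_eventuallyEq (Eventually.of_forall fun y => ?_)
  simp only
  rw [dot_mulVec_eq_hs]
  exact hid y

/-- Continuity of the solution along the path. -/
theorem continuous_sol {ε : ℝ} (hε : 0 < ε) (n : ℤ) {ξ : ℝ → Vec d} (hξ : Continuous ξ)
    {F : ℝ → Mat d} (hFc : Continuous F) (hQ : ∀ x, QBound ε (F x)) :
    Continuous fun x => sol (F x) n (vecMulVec (ξ x) (ξ x)) := by
  set X : ℝ → Mat d := fun y => vecMulVec (ξ y) (ξ y) with hXdef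
  set Ω : ℝ → Mat d := fun y => sol (F y) n (X y) with hΩdef
  have hspec : ∀ y, lyap (F y) n (Ω y) = X y := fun y => sol_spec (hQ y) hε n (X y)
  have hXc : Continuous X := hξ.matrix_vecMulVec hξ
  rw [continuous_iff_continuousAt]
  intro x
  have hLD : ∀ y, lyap (F y) n (Ω y - Ω x) =
      X y - X x - ((F y - F x) * Ω x + Ω x * (F y - F x)) := fun y =>
    (b_identity (hQ y) (hspec x) (hspec y)).1
  set R : ℝ → Mat d := fun y => X y - X x - ((F y - F x) * Ω x + Ω x * (F y - F x)) with hRdef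
  have hRc : Continuous R := by
    have h1 : Continuous fun y => F y - F x := hFc.sub continuous_const
    exact (hXc.sub continuous_const).sub
      ((h1.matrix_mul continuous_const).add (continuous_const.matrix_mul h1))
  have hRx : R x = 0 := by simp [hRdef]
  have hhs : Continuous fun y => hs (R y) (R y) := by
    unfold hs
    refine continuous_finsetSum _ fun i _ => continuous_finsetSum _ fun j _ => ?_
    exact (hRc.matrix_elem i j).mul (hRc.matrix_elem i j)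
  have hbound : ∀ y i j, (Ω y - Ω x) i j ^ 2 ≤ hs (R y) (R y) / (4 * ε ^ 2) := by
    intro y i j
    have h0 : Ω y - Ω x = sol (F y) n (R y) := sol_unique (hQ y) hε n (hLD y)
    have h1 := sol_bound (hQ y) hε n (R y)
    rw [← h0] at h1
    have h2 := entry_sq_le_hs (Ω y - Ω x) i j
    rw [le_div_iff₀ (by positivity)]
    nlinarith [sq_nonneg ε]
  refine continuousAt_pi.2 fun i => continuousAt_pi.2 fun j => ?_
  have hc : Continuous fun y => Real.sqrt (hs (R y) (R y) / (4 * ε ^ 2)) :=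
    (hhs.div_const _).sqrt
  have ht : Tendsto (fun y => Real.sqrt (hs (R y) (R y) / (4 * ε ^ 2))) (𝓝 x) (𝓝 0) := by
    have := hc.tendsto x
    simpa [hRx, hs_zero_right] using this
  have hs0 : Tendsto (fun y => Ω y i j - Ω x i j) (𝓝 x) (𝓝 0) := by
    refine squeeze_zero_norm (fun y => ?_) ht
    rw [Real.norm_eq_abs]
    exact Real.abs_le_sqrt (hbound y i j)
  exact tendsto_sub_nhds_zero_iff.mp hs0

end Vale.Agent.Lib.P371.Sharp
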