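import Vale.Agent.Lib.P371.Sharp.Trig
import Vale.Agent.Lib.P371.Sharp.Lyap
import Vale.Agent.Lib.P371.Sharp.Eigen
import Vale.Agent.Lib.P371.Sharp.Path

/-!
# The core inequality of the sharp kinetic bound, in coordinates.

For a `C¹` curve `ξ : ℝ → ℝ^d` with Gram matrix at most `1 - 2ε` put
`F x = ε + ∫_{-∞}^x ξ ξᵀ`, integrate the derivative of the calibrator over the line and use the
pointwise inequality `lyap_ineq` with the kernel bound `kappa_lower`.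
-/

open Matrix MeasureTheory Filter Topology Set

namespace Vale.Agent.Lib.P371.Sharp

variable {d : ℕ}

lemma dot_self_nonneg (u : Vec d) : 0 ≤ u ⬝ᵥ u :=
  Finset.sum_nonneg fun i _ => mul_self_nonneg (u i)

lemma two_dot_le (u v : Vec d) : 2 * (u ⬝ᵥ v) ≤ u ⬝ᵥ u + v ⬝ᵥ v := by
  simp only [dotProduct, Finset.mul_sum, ← Finset.sum_add_distrib]
  exact Finset.sum_le_sum fun i _ => by nlinarith [sq_nonneg (u i - v i)]

lemma two_abs_dot_le (u v : Vec d) : 2 * |u ⬝ᵥ v| ≤ u ⬝ᵥ u + v ⬝ᵥ v := by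
  have h1 := two_dot_le u v
  have h2 := two_dot_le u (-v)
  simp only [dotProduct_neg, neg_dotProduct, neg_neg] at h2
  rcases abs_cases (u ⬝ᵥ v) with ⟨h, _⟩ | ⟨h, _⟩ <;> rw [h] <;> linarith

lemma integrable_mul_of_sq {f g : ℝ → ℝ} (hfm : Continuous f) (hgm : Continuous g)
    (hf : Integrable fun x => f x ^ 2) (hg : Integrable fun x => g x ^ 2) :
    Integrable fun x => f x * g x :=
  (hf.add hg).mono' (hfm.mul hgm).aestronglyMeasurable (Eventually.of_forall fun x => by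
    rw [Real.norm_eq_abs, abs_mul]
    simp only [Pi.add_apply]
    nlinarith [sq_nonneg (|f x| - |g x|), sq_abs (f x), sq_abs (g x), abs_nonneg (f x),
      abs_nonneg (g x)])

/-- A function in `L²` with derivative in `L²` tends to zero at both ends, in squared form. -/
lemma tendsto_sq_zero {f f' : ℝ → ℝ} (hf : ∀ x, HasDerivAt f (f' x) x) (hf'c : Continuous f')
    (h1 : Integrable fun x => f x ^ 2) (h2 : Integrable fun x => f' x ^ 2) :
    Tendsto (fun x => f x ^ 2) atTop (𝓝 0) ∧ Tendsto (fun x => f x ^ 2) atBot (𝓝 0) := by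
  have hfc : Continuous f := continuous_iff_continuousAt.2 fun x => (hf x).continuousAt
  have hd : ∀ x, HasDerivAt (fun y => f y ^ 2) (2 * (f x * f' x)) x := fun x => by
    have := (hf x).pow 2
    refine this.congr_deriv ?_
    simp only [Nat.cast_ofNat]
    ring
  have hi : Integrable fun x => 2 * (f x * f' x) :=
    (integrable_mul_of_sq hfc hf'c h1 h2).const_mul 2
  exact ⟨tendsto_zero_of_hasDerivAt_of_integrableOn_Ioi (a := 0) (fun x _ => hd x)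
      hi.integrableOn h1.integrableOn,
    tendsto_zero_of_hasDerivAt_of_integrableOn_Iic (a := 0) (fun x _ => hd x)
      hi.integrableOn h1.integrableOn⟩

/-- A continuous function tending to `0` at both ends is bounded above. -/
lemma bdd_of_tendsto {g : ℝ → ℝ} (hg : Continuous g) (h1 : Tendsto g atTop (𝓝 0))
    (h2 : Tendsto g atBot (𝓝 0)) : ∃ C, 0 ≤ C ∧ ∀ x, g x ≤ C := by
  have e1 : ∀ᶠ x in atTop, g x < 1 := h1.eventually (gt_mem_nhds (by norm_num))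
  have e2 : ∀ᶠ x in atBot, g x < 1 := h2.eventually (gt_mem_nhds (by norm_num))
  obtain ⟨R1, hR1⟩ := eventually_atTop.1 e1
  obtain ⟨R2, hR2⟩ := eventually_atBot.1 e2
  obtain ⟨C, hC⟩ := (isCompact_Icc (a := R2) (b := R1)).bddAbove_image hg.continuousOn
  refine ⟨max C 1, by positivity, fun x => ?_⟩
  by_cases hx1 : R1 ≤ x
  · exact (hR1 x hx1).le.trans (le_max_right _ _)
  by_cases hx2 : x ≤ R2
  · exact (hR2 x hx2).le.trans (le_max_right _ _)
  · push Not at hx1 hx2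
    exact (hC (mem_image_of_mem g ⟨hx2.le, hx1.le⟩)).trans (le_max_left _ _)

/-- The path `F x = ε + ∫_{-∞}^x ξ ξᵀ`. -/
noncomputable def pathF (ε : ℝ) (ξ : ℝ → Vec d) (x : ℝ) : Mat d :=
  Matrix.of fun i j => (if i = j then ε else 0) + ∫ y in Iic x, ξ y i * ξ y j

lemma hasDerivAt_Iic {g : ℝ → ℝ} (hg : Continuous g) (hi : Integrable g) (x : ℝ) :
    HasDerivAt (fun y => ∫ t in Iic y, g t) (g x) x := by
  have e : (fun y => ∫ t in Iic y, g t) = fun y => (∫ t in Iic 0, g t) + ∫ t in (0 : ℝ)..y, g t := by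
    ext y
    rw [← intervalIntegral.integral_Iic_sub_Iic hi.integrableOn hi.integrableOn]
    ring
  rw [e]
  have := (hg.integral_hasStrictDerivAt 0 x).hasDerivAt
  exact this.const_add _

section path

variable {ε : ℝ} {ξ ξ' : ℝ → Vec d}

lemma xi_continuous (hξ : ∀ x i, HasDerivAt (fun y => ξ y i) (ξ' x i) x) : Continuous ξ :=
  continuous_pi fun i => continuous_iff_continuousAt.2 fun x => (hξ x i).continuousAt

lemma integrable_pair (hξc : Continuous ξ) (hL2 : ∀ i, Integrable fun x => ξ x i ^ 2) (i j : Fin d) :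
    Integrable fun y => ξ y i * ξ y j :=
  integrable_mul_of_sq ((continuous_apply i).comp hξc) ((continuous_apply j).comp hξc)
    (hL2 i) (hL2 j)

lemma continuous_pair (hξc : Continuous ξ) (i j : Fin d) : Continuous fun y => ξ y i * ξ y j :=
  ((continuous_apply i).comp hξc).mul ((continuous_apply j).comp hξc)

lemma pathF_hasDerivAt (hξc : Continuous ξ) (hL2 : ∀ i, Integrable fun x => ξ x i ^ 2)
    (x : ℝ) (i j : Fin d) :
    HasDerivAt (fun y => pathF ε ξ y i j) (ξ x i * ξ x j) x :=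
  (hasDerivAt_Iic (continuous_pair hξc i j) (integrable_pair hξc hL2 i j) x).const_add _

lemma pathF_continuous (hξc : Continuous ξ) (hL2 : ∀ i, Integrable fun x => ξ x i ^ 2) :
    Continuous (pathF ε ξ) :=
  continuous_matrix fun i j => continuous_iff_continuousAt.2 fun x =>
    (pathF_hasDerivAt (ε := ε) hξc hL2 x i j).continuousAt

lemma sq_dot_eq (v : Vec d) (y : Vec d) :
    (v ⬝ᵥ y) ^ 2 = ∑ i, ∑ j, v i * v j * (y i * y j) := by
  simp only [dotProduct, sq, Finset.sum_mul_sum]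
  refine Finset.sum_congr rfl fun i _ => Finset.sum_congr rfl fun j _ => ?_
  ring

lemma integrable_dot_sq (hξc : Continuous ξ) (hL2 : ∀ i, Integrable fun x => ξ x i ^ 2) (v : Vec d) :
    Integrable fun y => (v ⬝ᵥ ξ y) ^ 2 := by
  simp only [sq_dot_eq]
  exact integrable_finsetSum _ fun i _ => integrable_finsetSum _ fun j _ =>
    (integrable_pair hξc hL2 i j).const_mul _

lemma pathF_qform (hξc : Continuous ξ) (hL2 : ∀ i, Integrable fun x => ξ x i ^ 2)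
    (x : ℝ) (v : Vec d) :
    v ⬝ᵥ (pathF ε ξ x *ᵥ v) = ε * (v ⬝ᵥ v) + ∫ y in Iic x, (v ⬝ᵥ ξ y) ^ 2 := by
  have h1 : (∫ y in Iic x, (v ⬝ᵥ ξ y) ^ 2)
      = ∑ i, ∑ j, v i * v j * ∫ y in Iic x, ξ y i * ξ y j := by
    simp only [sq_dot_eq]
    rw [integral_finsetSum _ fun i _ => integrable_finsetSum _ fun j _ =>
      ((integrable_pair hξc hL2 i j).const_mul _).integrableOn]
    refine Finset.sum_congr rfl fun i _ => ?_
    rw [integral_finsetSum _ fun j _ => ((integrable_pair hξc hL2 i j).const_mul _).integrableOn]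
    refine Finset.sum_congr rfl fun j _ => ?_
    rw [integral_const_mul]
  rw [h1]
  simp only [dotProduct, mulVec, pathF, Matrix.of_apply, Finset.mul_sum]
  rw [← Finset.sum_add_distrib]
  refine Finset.sum_congr rfl fun i _ => ?_
  have : ε * (v i * v i) = ∑ j, v i * (if i = j then ε else 0) * v j := by
    simp [Finset.sum_ite_eq]
    ring
  rw [this, ← Finset.sum_add_distrib]
  refine Finset.sum_congr rfl fun j _ => ?_
  ring

lemma pathF_symm (x : ℝ) : (pathF ε ξ x).IsSymm := by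
  refine Matrix.IsSymm.ext fun i j => ?_
  simp only [pathF, Matrix.of_apply]
  congr 1
  · simp only [eq_comm]
  · simp only [mul_comm]

lemma pathF_qbound (_hε : 0 < ε) (hξc : Continuous ξ) (hL2 : ∀ i, Integrable fun x => ξ x i ^ 2)
    (hbes : ∀ v : Vec d, ∫ x, (v ⬝ᵥ ξ x) ^ 2 ≤ (1 - 2 * ε) * (v ⬝ᵥ v)) (x : ℝ) :
    QBound ε (pathF ε ξ x) := by
  refine ⟨pathF_symm x, fun v => ?_⟩
  rw [pathF_qform hξc hL2]
  have h0 : 0 ≤ ∫ y in Iic x, (v ⬝ᵥ ξ y) ^ 2 := integral_nonneg fun y => sq_nonneg _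
  have h1 : ∫ y in Iic x, (v ⬝ᵥ ξ y) ^ 2 ≤ ∫ y, (v ⬝ᵥ ξ y) ^ 2 :=
    setIntegral_le_integral (integrable_dot_sq hξc hL2 v)
      (Eventually.of_forall fun y => sq_nonneg _)
  have h2 := hbes v
  constructor
  · linarith
  · linarith

end path

/-- `ξ·ξ` is integrable. -/
lemma integrable_self_dot {ξ : ℝ → Vec d} (hL2 : ∀ i, Integrable fun x => ξ x i ^ 2) :
    Integrable fun x => ξ x ⬝ᵥ ξ x := by
  simp only [dotProduct, ← sq]
  exact integrable_finsetSum _ fun i _ => hL2 i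

/-- The core estimate for a fixed `κ` below the kernel, at truncation `M`. -/
theorem core_kappa {ε κ : ℝ} (hε : 0 < ε) {ξ ξ' : ℝ → Vec d}
    (hξ : ∀ x i, HasDerivAt (fun y => ξ y i) (ξ' x i) x) (hξ'c : Continuous ξ')
    (hL2 : ∀ i, Integrable fun x => ξ x i ^ 2) (hL2' : ∀ i, Integrable fun x => ξ' x i ^ 2)
    (hbes : ∀ v : Vec d, ∫ x, (v ⬝ᵥ ξ x) ^ 2 ≤ (1 - 2 * ε) * (v ⬝ᵥ v)) (M : ℕ)
    (hM : ∀ A B : ℝ, 2 * ε ≤ A → A ≤ 2 - 2 * ε → 2 * ε ≤ B → B ≤ 2 - 2 * ε →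
      κ ≤ DM M A B - SM M A * SM M B) :
    Integrable (fun x => (ξ x ⬝ᵥ ξ x) ^ 3) ∧
    κ * ∫ x, (ξ x ⬝ᵥ ξ x) ^ 3 ≤ ∫ x, ξ' x ⬝ᵥ ξ' x := by
  have hξc : Continuous ξ := xi_continuous hξ
  have hdotc : Continuous fun x => ξ x ⬝ᵥ ξ x := Continuous.dotProduct hξc hξc
  -- decay of `ξ·ξ`
  have hdec : Tendsto (fun x => ξ x ⬝ᵥ ξ x) atTop (𝓝 0) ∧
      Tendsto (fun x => ξ x ⬝ᵥ ξ x) atBot (𝓝 0) := by
    have hi := fun i => tendsto_sq_zero (hξ · i) ((continuous_apply i).comp hξ'c) (hL2 i) (hL2' i)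
    simp only [dotProduct, ← sq]
    constructor
    · simpa using tendsto_finsetSum Finset.univ fun i _ => (hi i).1
    · simpa using tendsto_finsetSum Finset.univ fun i _ => (hi i).2
  obtain ⟨C, hC0, hC⟩ := bdd_of_tendsto hdotc hdec.1 hdec.2
  have hI1 := integrable_self_dot hL2
  have hI1' := integrable_self_dot hL2'
  have hI3 : Integrable fun x => (ξ x ⬝ᵥ ξ x) ^ 3 := by
    refine (hI1.const_mul (C ^ 2)).mono' (hdotc.pow 3).aestronglyMeasurable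
      (Eventually.of_forall fun x => ?_)
    have h0 := dot_self_nonneg (ξ x)
    have h1 := hC x
    rw [Real.norm_of_nonneg (by positivity)]
    calc (ξ x ⬝ᵥ ξ x) ^ 3 = (ξ x ⬝ᵥ ξ x) ^ 2 * (ξ x ⬝ᵥ ξ x) := by ring
      _ ≤ C ^ 2 * (ξ x ⬝ᵥ ξ x) := by
        apply mul_le_mul_of_nonneg_right _ h0
        exact pow_le_pow_left₀ h0 h1 2
  refine ⟨hI3, ?_⟩
  set F : ℝ → Mat d := pathF ε ξ with hFdef
  have hQ : ∀ x, QBound ε (F x) := pathF_qbound hε hξc hL2 hbes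
  have hFc : Continuous F := pathF_continuous hξc hL2
  have hFd : ∀ x i j, HasDerivAt (fun y => F y i j) (ξ x i * ξ x j) x :=
    pathF_hasDerivAt hξc hL2
  set a : ℤ → ℝ → Vec d := fun n x => sol (F x) n (vecMulVec (ξ x) (ξ x)) *ᵥ ξ x with ha
  have hac : ∀ n, Continuous (a n) := fun n =>
    Continuous.matrix_mulVec (continuous_sol hε n hξc hFc hQ) hξc
  have haa : ∀ n x, a n x ⬝ᵥ a n x ≤ (ξ x ⬝ᵥ ξ x) ^ 3 / (4 * ε ^ 2) := fun n x =>
    vec_bound (hQ x) hε n (ξ x)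
  have haaI : ∀ n, Integrable fun x => a n x ⬝ᵥ a n x := fun n =>
    (hI3.div_const (4 * ε ^ 2)).mono' (Continuous.dotProduct (hac n) (hac n)).aestronglyMeasurable
      (Eventually.of_forall fun x => by
        rw [Real.norm_of_nonneg (dot_self_nonneg _)]
        exact haa n x)
  have hmixI : ∀ n, Integrable fun x => ξ' x ⬝ᵥ a n x := fun n =>
    (hI1'.add (haaI n)).mono' (Continuous.dotProduct hξ'c (hac n)).aestronglyMeasurable
      (Eventually.of_forall fun x => by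
        rw [Real.norm_eq_abs]
        simp only [Pi.add_apply]
        have := two_abs_dot_le (ξ' x) (a n x)
        have h2 := abs_nonneg (ξ' x ⬝ᵥ a n x)
        linarith)
  -- each term integrates to zero
  have hterm : ∀ n, Integrable (fun x => 2 * (ξ' x ⬝ᵥ a n x) - a n x ⬝ᵥ a n x) ∧
      ∫ x, (2 * (ξ' x ⬝ᵥ a n x) - a n x ⬝ᵥ a n x) = 0 := by
    intro n
    have hI := ((hmixI n).const_mul 2).sub (haaI n)
    refine ⟨hI, ?_⟩
    have hbound : ∀ x, |(1 / 2 : ℝ) * (ξ x ⬝ᵥ a n x)| ≤ (1 / 2) * ((ξ x ⬝ᵥ ξ x) ^ 2 / (2 * ε)) := by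
      intro x
      rw [abs_mul, abs_of_pos (by norm_num : (0 : ℝ) < 1 / 2)]
      exact mul_le_mul_of_nonneg_left (quad_bound (hQ x) hε n (ξ x)) (by norm_num)
    have hlim : ∀ l : Filter ℝ, Tendsto (fun x => ξ x ⬝ᵥ ξ x) l (𝓝 0) →
        Tendsto (fun x => (1 / 2 : ℝ) * (ξ x ⬝ᵥ a n x)) l (𝓝 0) := by
      intro l hl
      have h1 : Tendsto (fun x => (1 / 2 : ℝ) * ((ξ x ⬝ᵥ ξ x) ^ 2 / (2 * ε))) l (𝓝 0) := by
        simpa using ((hl.pow 2).div_const (2 * ε)).const_mul (1 / 2 : ℝ)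
      exact squeeze_zero_norm (fun x => by
        rw [Real.norm_eq_abs]
        exact hbound x) h1
    have := integral_of_hasDerivAt_of_tendsto
      (f := fun x => (1 / 2 : ℝ) * (ξ x ⬝ᵥ a n x))
      (f' := fun x => 2 * (ξ' x ⬝ᵥ a n x) - a n x ⬝ᵥ a n x)
      (fun x => hasDerivAt_b hε n hξ hFd hQ x) hI (hlim _ hdec.2) (hlim _ hdec.1)
    simpa using this
  -- sum over the window
  set W := Finset.Icc (-(M : ℤ)) (M : ℤ) with hW
  set s : ℝ → Vec d := fun x => ∑ n ∈ W, a n x with hs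
  have hsumI : Integrable fun x => ∑ n ∈ W, (2 * (ξ' x ⬝ᵥ a n x) - a n x ⬝ᵥ a n x) :=
    integrable_finsetSum _ fun n _ => (hterm n).1
  have hsum0 : ∫ x, ∑ n ∈ W, (2 * (ξ' x ⬝ᵥ a n x) - a n x ⬝ᵥ a n x) = 0 := by
    rw [integral_finsetSum _ fun n _ => (hterm n).1]
    exact Finset.sum_eq_zero fun n _ => (hterm n).2
  have hpt : ∀ x, ∑ n ∈ W, (2 * (ξ' x ⬝ᵥ a n x) - a n x ⬝ᵥ a n x)
      ≤ ξ' x ⬝ᵥ ξ' x - κ * (ξ x ⬝ᵥ ξ x) ^ 3 := by
    intro x
    have h1 := lyap_ineq (hQ x) hε M hM (ξ x)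
    simp only at h1
    have h2 := two_dot_le (ξ' x) (s x)
    have h3 : ∑ n ∈ W, (2 * (ξ' x ⬝ᵥ a n x) - a n x ⬝ᵥ a n x)
        = 2 * (ξ' x ⬝ᵥ s x) - ∑ n ∈ W, a n x ⬝ᵥ a n x := by
      rw [Finset.sum_sub_distrib, ← Finset.mul_sum, hs]
      simp only [dotProduct_sum]
    rw [h3]
    have h4 : κ * (ξ x ⬝ᵥ ξ x) ^ 3 ≤ (∑ n ∈ W, a n x ⬝ᵥ a n x) - s x ⬝ᵥ s x := h1
    linarith
  have hfinal : ∫ x, ∑ n ∈ W, (2 * (ξ' x ⬝ᵥ a n x) - a n x ⬝ᵥ a n x)
      ≤ ∫ x, (ξ' x ⬝ᵥ ξ' x - κ * (ξ x ⬝ᵥ ξ x) ^ 3) :=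
    integral_mono hsumI (hI1'.sub (hI3.const_mul κ)) hpt
  rw [hsum0, integral_sub hI1' (hI3.const_mul κ), integral_const_mul] at hfinal
  linarith

/-- S5: the core inequality in coordinates for `C¹` curves with Gram matrix `≤ 1 - 2ε`.
Put `F x = ε + ∫_{-∞}^x ξ ξᵀ`; integrate `b'` over `ℝ` for each `n`, sum over `|n| ≤ M`, use
`|ξ'|² ≥ 2 ξ'·s - |s|²`, `lyap_ineq` and `kappa_lower`. -/
theorem core_coord {ε : ℝ} (hε : 0 < ε) (_hε2 : ε < 1 / 2) {ξ ξ' : ℝ → Vec d}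
    (hξ : ∀ x i, HasDerivAt (fun y => ξ y i) (ξ' x i) x) (hξ'c : Continuous ξ')
    (hL2 : ∀ i, Integrable fun x => ξ x i ^ 2) (hL2' : ∀ i, Integrable fun x => ξ' x i ^ 2)
    (hbes : ∀ v : Vec d, ∫ x, (v ⬝ᵥ ξ x) ^ 2 ≤ (1 - 2 * ε) * (v ⬝ᵥ v)) :
    Integrable (fun x => (ξ x ⬝ᵥ ξ x) ^ 3) ∧
    Real.pi ^ 2 / 4 * ∫ x, (ξ x ⬝ᵥ ξ x) ^ 3 ≤ ∫ x, ξ' x ⬝ᵥ ξ' x := by
  have hkey : ∀ δ : ℝ, 0 < δ → Integrable (fun x => (ξ x ⬝ᵥ ξ x) ^ 3) ∧
      (Real.pi ^ 2 / 4 - δ) * ∫ x, (ξ x ⬝ᵥ ξ x) ^ 3 ≤ ∫ x, ξ' x ⬝ᵥ ξ' x := by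
    intro δ hδ
    obtain ⟨M₀, hM₀⟩ := kappa_lower hε hδ
    exact core_kappa hε hξ hξ'c hL2 hL2' hbes M₀ (hM₀ M₀ le_rfl)
  refine ⟨(hkey 1 one_pos).1, ?_⟩
  set I := ∫ x, (ξ x ⬝ᵥ ξ x) ^ 3 with hI
  have hI0 : 0 ≤ I := integral_nonneg fun x => pow_nonneg (dot_self_nonneg _) 3
  refine le_of_forall_pos_le_add fun η hη => ?_
  have h := (hkey (η / (I + 1)) (by positivity)).2
  have h2 : η / (I + 1) * I ≤ η := by
    rw [div_mul_eq_mul_div, div_le_iff₀ (by positivity)]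
    nlinarith
  nlinarith

end Vale.Agent.Lib.P371.Sharp
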