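import Mathlib

/-!
# Sharp kinetic Lieb-Thirring, matrix case: positivity of the triple form

For a positive semidefinite real symmetric `X` and angles in `(0, π/2)`:
`∑ X_jk X_kl X_lj (sinc u_kl - cos u_kl) / (sin(α_j+α_k) sin(α_j+α_l)) ≥ 0`.
-/

open Finset Filter Topology MeasureTheory

namespace Vale.Agent.Lib.P371.Sharp

section PSD

variable {ι : Type} [Fintype ι] [DecidableEq ι]

/-- A symmetric kernel on a finite set with nonnegative quadratic form. -/
def PSDK (K : ι → ι → ℝ) : Prop :=
  (∀ i j, K i j = K j i) ∧ ∀ c : ι → ℝ, 0 ≤ ∑ i, ∑ j, c i * c j * K i j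

theorem PSDK.add {A B : ι → ι → ℝ} (hA : PSDK A) (hB : PSDK B) :
    PSDK (fun i j => A i j + B i j) := by
  refine ⟨fun i j => by show A i j + B i j = A j i + B j i; rw [hA.1 i j, hB.1 i j], fun c => ?_⟩
  have : ∑ i, ∑ j, c i * c j * (A i j + B i j) =
      ∑ i, ∑ j, c i * c j * A i j + ∑ i, ∑ j, c i * c j * B i j := by
    rw [← Finset.sum_add_distrib]
    apply Finset.sum_congr rfl
    intro i _
    rw [← Finset.sum_add_distrib]
    apply Finset.sum_congr rfl
    intro j _
    ring
  rw [this]
  exact add_nonneg (hA.2 c) (hB.2 c)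

theorem PSDK.smul {A : ι → ι → ℝ} (hA : PSDK A) {r : ℝ} (hr : 0 ≤ r) :
    PSDK (fun i j => r * A i j) := by
  refine ⟨fun i j => by show r * A i j = r * A j i; rw [hA.1 i j], fun c => ?_⟩
  have : ∑ i, ∑ j, c i * c j * (r * A i j) = r * ∑ i, ∑ j, c i * c j * A i j := by
    rw [Finset.mul_sum]
    apply Finset.sum_congr rfl
    intro i _
    rw [Finset.mul_sum]
    apply Finset.sum_congr rfl
    intro j _
    ring
  rw [this]
  exact mul_nonneg hr (hA.2 c)

theorem PSDK.rankOne (g : ι → ℝ) : PSDK (fun i j => g i * g j) := by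
  refine ⟨fun i j => mul_comm _ _, fun c => ?_⟩
  have : ∑ i, ∑ j, c i * c j * (g i * g j) = (∑ i, c i * g i) ^ 2 := by
    rw [sq, Finset.sum_mul_sum]
    apply Finset.sum_congr rfl
    intro i _
    apply Finset.sum_congr rfl
    intro j _
    ring
  rw [this]
  positivity

theorem PSDK.const {r : ℝ} (hr : 0 ≤ r) : PSDK (fun _ _ : ι => r) := by
  have := (PSDK.rankOne (fun _ : ι => (1 : ℝ))).smul hr
  simpa using this

/-- A positive semidefinite kernel is a sum of rank one kernels. -/
theorem PSDK.decomp {B : ι → ι → ℝ} (hB : PSDK B) :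
    ∃ (Q : ι → ι → ℝ) (l : ι → ℝ), (∀ r, 0 ≤ l r) ∧ ∀ i j, B i j = ∑ r, l r * (Q i r * Q j r) := by
  have hH : (Matrix.of B).IsHermitian := by
    unfold Matrix.IsHermitian
    rw [Matrix.conjTranspose_eq_transpose_of_trivial]
    ext i j
    exact hB.1 j i
  set U : Matrix ι ι ℝ := (hH.eigenvectorUnitary : Matrix ι ι ℝ) with hU
  have h1 : U.transpose * U = 1 := by
    have := Unitary.coe_star_mul_self hH.eigenvectorUnitary
    rwa [Matrix.star_eq_conjTranspose, Matrix.conjTranspose_eq_transpose_of_trivial] at this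
  have h3 : Matrix.of B = U * Matrix.diagonal hH.eigenvalues * U.transpose := by
    have := hH.spectral_theorem
    rw [Unitary.conjStarAlgAut_apply, Matrix.star_eq_conjTranspose,
      Matrix.conjTranspose_eq_transpose_of_trivial] at this
    simpa using this
  have hentry : ∀ i j, B i j = ∑ r, hH.eigenvalues r * (U i r * U j r) := by
    intro i j
    have := congrFun (congrFun h3 i) j
    rw [Matrix.of_apply, Matrix.mul_apply] at this
    rw [this]
    apply Finset.sum_congr rfl
    intro r _
    rw [Matrix.mul_diagonal, Matrix.transpose_apply]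
    ring
  refine ⟨fun i r => U i r, hH.eigenvalues, ?_, hentry⟩
  intro r
  have hq := hB.2 (fun i => U i r)
  -- evaluate the quadratic form on the column `r`
  have hcol : ∑ i, U i r * U i r = 1 ∧ ∀ s, s ≠ r → ∑ i, U i r * U i s = 0 := by
    have h5 : ∀ s, ∑ i, U i r * U i s = (U.transpose * U) r s := by
      intro s
      rw [Matrix.mul_apply]
      rfl
    refine ⟨by rw [h5, h1]; simp, fun s hs => by rw [h5, h1, Matrix.one_apply_ne hs.symm]⟩
  have hval : ∑ i, ∑ j, U i r * U j r * B i j = hH.eigenvalues r := by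
    have e1 : ∑ i, ∑ j, U i r * U j r * B i j =
        ∑ s, hH.eigenvalues s * (∑ i, U i r * U i s) * (∑ j, U j r * U j s) := by
      calc ∑ i, ∑ j, U i r * U j r * B i j
          = ∑ i, ∑ j, ∑ s, U i r * U j r * (hH.eigenvalues s * (U i s * U j s)) := by
            apply Finset.sum_congr rfl
            intro i _
            apply Finset.sum_congr rfl
            intro j _
            rw [hentry, Finset.mul_sum]
        _ = ∑ i, ∑ s, ∑ j, U i r * U j r * (hH.eigenvalues s * (U i s * U j s)) := by
            apply Finset.sum_congr rfl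
            intro i _
            exact Finset.sum_comm
        _ = ∑ s, ∑ i, ∑ j, U i r * U j r * (hH.eigenvalues s * (U i s * U j s)) :=
            Finset.sum_comm
        _ = _ := by
            apply Finset.sum_congr rfl
            intro s _
            rw [mul_assoc (hH.eigenvalues s), Finset.sum_mul_sum, Finset.mul_sum]
            apply Finset.sum_congr rfl
            intro i _
            rw [Finset.mul_sum]
            apply Finset.sum_congr rfl
            intro j _
            ring
    rw [e1]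
    rw [Finset.sum_eq_single r]
    · rw [hcol.1]; ring
    · intro s _ hs
      rw [hcol.2 s hs]; ring
    · intro h
      exact absurd (Finset.mem_univ r) h
  rw [← hval]
  exact hq

/-- Schur product theorem. -/
theorem PSDK.schur {A B : ι → ι → ℝ} (hA : PSDK A) (hB : PSDK B) :
    PSDK (fun i j => A i j * B i j) := by
  refine ⟨fun i j => by show A i j * B i j = A j i * B j i; rw [hA.1 i j, hB.1 i j], fun c => ?_⟩
  obtain ⟨Q, l, hl, hB'⟩ := hB.decomp
  have e : ∑ i, ∑ j, c i * c j * (A i j * B i j) =
      ∑ r, l r * ∑ i, ∑ j, (c i * Q i r) * (c j * Q j r) * A i j := by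
    simp_rw [hB', Finset.mul_sum]
    calc ∑ i, ∑ j, ∑ r, c i * c j * (A i j * (l r * (Q i r * Q j r)))
        = ∑ i, ∑ r, ∑ j, c i * c j * (A i j * (l r * (Q i r * Q j r))) := by
          apply Finset.sum_congr rfl
          intro i _
          exact Finset.sum_comm
      _ = ∑ r, ∑ i, ∑ j, c i * c j * (A i j * (l r * (Q i r * Q j r))) := Finset.sum_comm
      _ = _ := by
          apply Finset.sum_congr rfl
          intro r _
          apply Finset.sum_congr rfl
          intro i _
          apply Finset.sum_congr rfl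
          intro j _
          ring
  rw [e]
  exact Finset.sum_nonneg fun r _ => mul_nonneg (hl r) (hA.2 _)

theorem PSDK.prod {A : ℕ → ι → ι → ℝ} (hA : ∀ n, PSDK (A n)) (N : ℕ) :
    PSDK (fun i j => ∏ n ∈ range N, A n i j) := by
  induction N with
  | zero =>
    simpa using (PSDK.const (ι := ι) (r := 1) zero_le_one)
  | succ N IH =>
    have := IH.schur (hA N)
    simpa only [Finset.prod_range_succ] using this

theorem PSDK.limit {A : ℕ → ι → ι → ℝ} {B : ι → ι → ℝ} (hA : ∀ n, PSDK (A n))
    (h : ∀ i j, Tendsto (fun n => A n i j) atTop (𝓝 (B i j))) : PSDK B := by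
  refine ⟨fun i j => ?_, fun c => ?_⟩
  · have h1 : Tendsto (fun n => A n i j) atTop (𝓝 (B j i)) := by
      refine (h j i).congr ?_
      intro n
      exact (hA n).1 j i
    exact tendsto_nhds_unique (h i j) h1
  · have h2 : Tendsto (fun n => ∑ i, ∑ j, c i * c j * A n i j) atTop
        (𝓝 (∑ i, ∑ j, c i * c j * B i j)) := by
      refine tendsto_finset_sum _ fun i _ => tendsto_finset_sum _ fun j _ => ?_
      exact (h i j).const_mul _
    exact ge_of_tendsto' h2 fun n => (hA n).2 c

/-- Cauchy kernels. -/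
theorem PSDK.cauchy (y : ι → ℝ) (C : ℝ) (h : ∀ i j, 0 < C + y i + y j) :
    PSDK (fun i j => 1 / (C + y i + y j)) := by
  refine ⟨fun i j => by
    show 1 / (C + y i + y j) = 1 / (C + y j + y i)
    rw [add_right_comm], fun c => ?_⟩
  have hint : ∀ i j, (1 / (C + y i + y j)) =
      ∫ t in Set.Ioi (0 : ℝ), Real.exp (-(C + y i + y j) * t) := by
    intro i j
    have := integral_exp_mul_Ioi (a := -(C + y i + y j)) (by linarith [h i j]) 0
    rw [this, neg_div_neg_eq, mul_zero, Real.exp_zero]
  have hI : ∀ i j, IntegrableOn (fun t => Real.exp (-(C + y i + y j) * t)) (Set.Ioi (0 : ℝ)) :=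
    fun i j => integrableOn_exp_mul_Ioi (by linarith [h i j]) 0
  have e : ∑ i, ∑ j, c i * c j * (1 / (C + y i + y j)) =
      ∫ t in Set.Ioi (0 : ℝ), ∑ i, ∑ j, c i * c j * Real.exp (-(C + y i + y j) * t) := by
    rw [integral_finset_sum]
    · apply Finset.sum_congr rfl
      intro i _
      rw [integral_finset_sum]
      · apply Finset.sum_congr rfl
        intro j _
        rw [integral_const_mul, hint]
      · intro j _
        exact (hI i j).const_mul _
    · intro i _
      exact integrable_finset_sum _ fun j _ => (hI i j).const_mul _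
  rw [e]
  apply integral_nonneg
  intro t
  have e2 : ∑ i, ∑ j, c i * c j * Real.exp (-(C + y i + y j) * t) =
      Real.exp (-C * t) * (∑ i, c i * Real.exp (-y i * t)) ^ 2 := by
    rw [sq, Finset.sum_mul_sum, Finset.mul_sum]
    apply Finset.sum_congr rfl
    intro i _
    rw [Finset.mul_sum]
    apply Finset.sum_congr rfl
    intro j _
    have : Real.exp (-(C + y i + y j) * t) =
        Real.exp (-C * t) * (Real.exp (-y i * t) * Real.exp (-y j * t)) := by
      rw [← Real.exp_add, ← Real.exp_add]
      congr 1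
      ring
    rw [this]
    ring
  show 0 ≤ ∑ i, ∑ j, c i * c j * Real.exp (-(C + y i + y j) * t)
  rw [e2]
  positivity

/-- The ratio of sines is a positive semidefinite kernel, by the Euler product. -/
theorem sin_ratio_psd (z : ι → ι → ℝ) (hz : ∀ i j, 0 < z i j ∧ z i j < Real.pi)
    (β : ℝ) (hβ : 0 < β ∧ β < 1)
    (h1 : ∀ n : ℕ, PSDK (fun i j => 1 / (Real.pi * ((n : ℝ) + 1) - z i j)))
    (h2 : ∀ n : ℕ, PSDK (fun i j => 1 / (Real.pi * ((n : ℝ) + 1) + z i j))) :
    PSDK (fun i j => Real.sin (β * z i j) / Real.sin (z i j)) := by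
  have hpi := Real.pi_pos
  -- the factors
  set fac : ℕ → ι → ι → ℝ := fun n i j =>
    β ^ 2 + ((1 - β ^ 2) * ((Real.pi * ((n : ℝ) + 1)) / 2)) *
      (1 / (Real.pi * ((n : ℝ) + 1) - z i j)) +
      ((1 - β ^ 2) * ((Real.pi * ((n : ℝ) + 1)) / 2)) *
      (1 / (Real.pi * ((n : ℝ) + 1) + z i j)) with hfac
  have hβ2 : 0 ≤ 1 - β ^ 2 := by nlinarith [hβ.1, hβ.2]
  have hfacpsd : ∀ n, PSDK (fac n) := by
    intro n
    have hc : 0 ≤ (1 - β ^ 2) * ((Real.pi * ((n : ℝ) + 1)) / 2) := by positivity
    exact ((PSDK.const (sq_nonneg β)).add ((h1 n).smul hc)).add ((h2 n).smul hc)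
  have hprod := PSDK.prod hfacpsd
  -- the limit
  have hlim : ∀ i j, Tendsto (fun N => β * ∏ n ∈ range N, fac n i j) atTop
      (𝓝 (Real.sin (β * z i j) / Real.sin (z i j))) := by
    intro i j
    obtain ⟨hz0, hz1⟩ := hz i j
    have hs : Real.sin (z i j) ≠ 0 := (Real.sin_pos_of_pos_of_lt_pi hz0 hz1).ne'
    have hnum := Real.tendsto_euler_sin_prod (β * z i j / Real.pi)
    have hden := Real.tendsto_euler_sin_prod (z i j / Real.pi)
    have e1 : Real.pi * (β * z i j / Real.pi) = β * z i j := by field_simp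
    have e2 : Real.pi * (z i j / Real.pi) = z i j := by field_simp
    rw [e1] at hnum
    rw [e2] at hden
    have hdiv := hnum.div hden hs
    refine hdiv.congr ?_
    intro N
    have hpos : ∀ n ∈ range N, (1 : ℝ) - (z i j / Real.pi) ^ 2 / ((n : ℝ) + 1) ^ 2 ≠ 0 := by
      intro n _
      have h3 : (z i j / Real.pi) < 1 := by
        rw [div_lt_one hpi]
        exact hz1
      have h4 : 0 < z i j / Real.pi := by positivity
      have h5 : (1 : ℝ) ≤ (n : ℝ) + 1 := by
        have : (0 : ℝ) ≤ n := by positivity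
        linarith
      have h6 : (z i j / Real.pi) ^ 2 / ((n : ℝ) + 1) ^ 2 < 1 := by
        rw [div_lt_one (by positivity)]
        nlinarith
      linarith
    have hz0' : z i j ≠ 0 := hz0.ne'
    have hprodne : ∏ n ∈ range N, ((1 : ℝ) - (z i j / Real.pi) ^ 2 / ((n : ℝ) + 1) ^ 2) ≠ 0 :=
      Finset.prod_ne_zero_iff.2 hpos
    simp only [Pi.div_apply]
    rw [mul_div_mul_comm]
    have e3 : β * z i j / z i j = β := by field_simp
    rw [e3, ← Finset.prod_div_distrib]
    congr 1
    apply Finset.prod_congr rfl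
    intro n hn
    have hne := hpos n hn
    simp only [hfac]
    set c := Real.pi * ((n : ℝ) + 1) with hc
    have hcpos : 0 < c := by positivity
    have hc1 : z i j < c := by
      have : Real.pi ≤ c := by
        rw [hc]
        have : (0 : ℝ) ≤ n := by positivity
        nlinarith
      linarith
    have hc2 : c - z i j ≠ 0 := by linarith
    have hc3 : c + z i j ≠ 0 := by linarith
    have e4 : (1 : ℝ) - (β * z i j / Real.pi) ^ 2 / ((n : ℝ) + 1) ^ 2 =
        1 - β ^ 2 * z i j ^ 2 / c ^ 2 := by
      rw [hc]; field_simp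
    have e5 : (1 : ℝ) - (z i j / Real.pi) ^ 2 / ((n : ℝ) + 1) ^ 2 = 1 - z i j ^ 2 / c ^ 2 := by
      rw [hc]; field_simp
    rw [e4, e5]
    have hne2 : c ^ 2 - z i j ^ 2 ≠ 0 := by
      have : c ^ 2 - z i j ^ 2 = (c - z i j) * (c + z i j) := by ring
      rw [this]
      exact mul_ne_zero hc2 hc3
    have e6 : (1 : ℝ) - z i j ^ 2 / c ^ 2 = (c ^ 2 - z i j ^ 2) / c ^ 2 := by
      field_simp
    have e7 : (1 : ℝ) - β ^ 2 * z i j ^ 2 / c ^ 2 = (c ^ 2 - β ^ 2 * z i j ^ 2) / c ^ 2 := by
      field_simp
    rw [e6, e7]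
    field_simp
    ring
  have hfinal : PSDK (fun i j => β * ∏ n ∈ range 0, fac n i j) := by
    simpa using (PSDK.const (ι := ι) hβ.1.le)
  exact PSDK.limit (A := fun N i j => β * ∏ n ∈ range N, fac n i j)
    (fun N => (hprod N).smul hβ.1.le) hlim

theorem PSDK.congr {A B : ι → ι → ℝ} (hA : PSDK A) (h : ∀ i j, B i j = A i j) : PSDK B := by
  have : B = A := by
    funext i j
    exact h i j
  rw [this]
  exact hA

section Kernels

variable (x : ι → ℝ) (hx : ∀ i, 0 < x i ∧ x i < Real.pi / 2)

include hx

theorem L1_psd (β : ℝ) (hβ : 0 < β ∧ β < 1) :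
    PSDK (fun i j => Real.sin (β * (x i + x j)) / Real.sin (x i + x j)) := by
  have hpi := Real.pi_pos
  refine sin_ratio_psd (fun i j => x i + x j) ?_ β hβ ?_ ?_
  · intro i j
    constructor <;> linarith [(hx i).1, (hx i).2, (hx j).1, (hx j).2]
  · intro n
    refine (PSDK.cauchy (fun i => -x i) (Real.pi * ((n : ℝ) + 1)) ?_).congr ?_
    · intro i j
      have hn : Real.pi ≤ Real.pi * ((n : ℝ) + 1) := by
        have : (0 : ℝ) ≤ n := by positivity
        nlinarith
      linarith [(hx i).2, (hx j).2]
    · intro i j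
      congr 1
      ring
  · intro n
    refine (PSDK.cauchy x (Real.pi * ((n : ℝ) + 1)) ?_).congr ?_
    · intro i j
      have hn : 0 < Real.pi * ((n : ℝ) + 1) := by positivity
      linarith [(hx i).1, (hx j).1]
    · intro i j
      congr 1
      ring

theorem L2_psd (β : ℝ) (hβ : 0 < β ∧ β < 1) :
    PSDK (fun i j => Real.sin (β * (Real.pi - (x i + x j))) / Real.sin (x i + x j)) := by
  have hpi := Real.pi_pos
  have key : PSDK (fun i j => Real.sin (β * (Real.pi - (x i + x j))) /
      Real.sin (Real.pi - (x i + x j))) := by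
    refine sin_ratio_psd (fun i j => Real.pi - (x i + x j)) ?_ β hβ ?_ ?_
    · intro i j
      constructor <;> linarith [(hx i).1, (hx i).2, (hx j).1, (hx j).2]
    · intro n
      refine (PSDK.cauchy x (Real.pi * (n : ℝ)) ?_).congr ?_
      · intro i j
        have hn : 0 ≤ Real.pi * (n : ℝ) := by positivity
        linarith [(hx i).1, (hx j).1]
      · intro i j
        congr 1
        ring
    · intro n
      refine (PSDK.cauchy (fun i => -x i) (Real.pi * ((n : ℝ) + 2)) ?_).congr ?_
      · intro i j
        have hn : Real.pi ≤ Real.pi * ((n : ℝ) + 2) := by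
          have : (0 : ℝ) ≤ n := by positivity
          nlinarith
        linarith [(hx i).2, (hx j).2]
      · intro i j
        congr 1
        ring
  refine key.congr ?_
  intro i j
  rw [Real.sin_pi_sub]

/-- The kernel `l(x+y)`. -/
theorem l_psd (β a : ℝ) (hβ : 0 < β ∧ β < 1) (ha : 0 ≤ Real.sin a)
    (ha2 : 0 ≤ Real.sin (a + β * Real.pi)) :
    PSDK (fun i j => Real.sin (a + β * (x i + x j)) / Real.sin (x i + x j)) := by
  have hpi := Real.pi_pos
  have hφ : 0 < Real.sin (β * Real.pi) := by
    apply Real.sin_pos_of_pos_of_lt_pi (mul_pos hβ.1 hpi)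
    nlinarith [hβ.2]
  have h1 := (L1_psd x hx β hβ).smul (div_nonneg ha2 hφ.le)
  have h2 := (L2_psd x hx β hβ).smul (div_nonneg ha hφ.le)
  refine (h1.add h2).congr ?_
  intro i j
  have hid : Real.sin (a + β * (x i + x j)) * Real.sin (β * Real.pi) =
      Real.sin (a + β * Real.pi) * Real.sin (β * (x i + x j)) +
        Real.sin a * Real.sin (β * (Real.pi - (x i + x j))) := by
    have e : β * (Real.pi - (x i + x j)) = β * Real.pi - β * (x i + x j) := by ring
    rw [e, Real.sin_add, Real.sin_add, Real.sin_sub]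
    ring
  have hne := hφ.ne'
  have e2 : Real.sin (a + β * (x i + x j)) =
      (Real.sin (a + β * Real.pi) * Real.sin (β * (x i + x j)) +
        Real.sin a * Real.sin (β * (Real.pi - (x i + x j)))) / Real.sin (β * Real.pi) := by
    rw [← hid]
    field_simp
  rw [e2]
  ring

/-- The kernel `(sin(2βx+a) + sin(2βy+a)) / sin(x+y)`. -/
theorem B_psd (β a : ℝ) (hβ : 0 < β ∧ β < 1) (ha : 0 ≤ Real.sin a)
    (ha2 : 0 ≤ Real.sin (a + β * Real.pi)) :
    PSDK (fun i j => (Real.sin (2 * β * x i + a) + Real.sin (2 * β * x j + a)) /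
      Real.sin (x i + x j)) := by
  have hcos : PSDK (fun i j => Real.cos (β * (x i - x j))) := by
    refine ((PSDK.rankOne (fun i => Real.cos (β * x i))).add
      (PSDK.rankOne (fun i => Real.sin (β * x i)))).congr ?_
    intro i j
    rw [mul_sub, Real.cos_sub]
  have h := (hcos.schur (l_psd x hx β a hβ ha ha2)).smul (zero_le_two)
  refine h.congr ?_
  intro i j
  have e1 : 2 * β * x i + a = (a + β * (x i + x j)) + β * (x i - x j) := by ring
  have e2 : 2 * β * x j + a = (a + β * (x i + x j)) - β * (x i - x j) := by ring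
  rw [e1, e2, Real.sin_add, Real.sin_sub]
  ring

omit hx in
/-- The weight function. -/
theorem pair_identity (t y z : ℝ) :
    Real.sin (y + z) * Real.cos (t * (y - z)) =
      (1 / 2) * (Real.sin (2 * ((1 + t) / 2) * y + (1 - t) * z) +
        Real.sin (2 * ((1 - t) / 2) * y + (1 + t) * z)) := by
  have e1 : 2 * ((1 + t) / 2) * y + (1 - t) * z = (y + z) + t * (y - z) := by ring
  have e2 : 2 * ((1 - t) / 2) * y + (1 + t) * z = (y + z) - t * (y - z) := by ring
  have key : ∀ A B : ℝ, Real.sin A * Real.cos B = (1 / 2) * (Real.sin (A + B) + Real.sin (A - B)) := by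
    intro A B
    rw [Real.sin_add, Real.sin_sub]
    ring
  rw [e1, e2]
  exact key _ _

/-- For `t` in `(-1,1)` the symmetrised kernel is positive semidefinite. -/
theorem Bt_psd (α₀ t : ℝ) (hα₀ : 0 < α₀ ∧ α₀ < Real.pi / 2) (ht : -1 < t ∧ t < 1) :
    PSDK (fun i j => (Real.sin (x i + α₀) * Real.cos (t * (x i - α₀)) +
      Real.sin (x j + α₀) * Real.cos (t * (x j - α₀))) / Real.sin (x i + x j)) := by
  have hpi := Real.pi_pos
  have hs : ∀ τ : ℝ, -1 < τ ∧ τ < 1 → 0 ≤ Real.sin ((1 - τ) * α₀) ∧
      0 ≤ Real.sin ((1 - τ) * α₀ + (1 + τ) / 2 * Real.pi) := by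
    intro τ hτ
    have h1 : 0 < 1 - τ := by linarith [hτ.2]
    have h2 : 0 < 1 + τ := by linarith [hτ.1]
    have h3 : (1 - τ) * α₀ < (1 - τ) * (Real.pi / 2) :=
      mul_lt_mul_of_pos_left hα₀.2 h1
    have h4 : 0 < (1 - τ) * α₀ := mul_pos h1 hα₀.1
    constructor
    · apply Real.sin_nonneg_of_nonneg_of_le_pi h4.le
      nlinarith
    · apply Real.sin_nonneg_of_nonneg_of_le_pi
      · have : 0 < (1 + τ) / 2 * Real.pi := by positivity
        linarith
      · nlinarith
  have hB1 := B_psd x hx ((1 + t) / 2) ((1 - t) * α₀)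
    ⟨by linarith [ht.1], by linarith [ht.2]⟩ (hs t ht).1 (hs t ht).2
  have hB2 := B_psd x hx ((1 - t) / 2) ((1 + t) * α₀)
    ⟨by linarith [ht.2], by linarith [ht.1]⟩
    (by
      have := (hs (-t) ⟨by linarith [ht.2], by linarith [ht.1]⟩).1
      simpa using this)
    (by
      have := (hs (-t) ⟨by linarith [ht.2], by linarith [ht.1]⟩).2
      have e : (1 - -t) * α₀ + (1 + -t) / 2 * Real.pi = (1 + t) * α₀ + (1 - t) / 2 * Real.pi := by
        ring
      rwa [e] at this)
  have h := (hB1.add hB2).smul (show (0 : ℝ) ≤ 1 / 2 by norm_num)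
  refine h.congr ?_
  intro i j
  rw [pair_identity t (x i) α₀, pair_identity t (x j) α₀]
  ring

end Kernels

end PSD

/-- The weight integral `w(u) = ∫_{-1}^1 (1-t²)/4 cos(tu) dt`. -/
noncomputable def ww (u : ℝ) : ℝ :=
  ∫ t in (-1 : ℝ)..1, (1 - t ^ 2) / 4 * Real.cos (t * u)

/-- The kernel `K(x,y) = sin(x+y) w(x-y)`. -/
noncomputable def KK (x y : ℝ) : ℝ := Real.sin (x + y) * ww (x - y)

theorem ww_neg (u : ℝ) : ww (-u) = ww u := by
  unfold ww
  apply intervalIntegral.integral_congr
  intro t _
  simp only [mul_neg, Real.cos_neg]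

theorem KK_symm (x y : ℝ) : KK x y = KK y x := by
  unfold KK
  rw [add_comm, ← neg_sub, ww_neg]

/-- `sinc u - cos u = u² w(u)`. -/
theorem sinc_sub_cos (u : ℝ) : Real.sinc u - Real.cos u = u ^ 2 * ww u := by
  by_cases hu : u = 0
  · subst hu
    simp
  · rw [Real.sinc_of_ne_zero hu]
    have hG : ∀ t ∈ Set.uIcc (-1 : ℝ) 1, HasDerivAt
        (fun t => (1 / 4) * ((1 - t ^ 2) * Real.sin (t * u) / u -
          2 * t * Real.cos (t * u) / u ^ 2 + 2 * Real.sin (t * u) / u ^ 3))
        ((1 - t ^ 2) / 4 * Real.cos (t * u)) t := by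
      intro t _
      have h1 : HasDerivAt (fun t : ℝ => t * u) u t := by
        simpa using (hasDerivAt_id t).mul_const u
      have hs : HasDerivAt (fun t : ℝ => Real.sin (t * u)) (Real.cos (t * u) * u) t :=
        (Real.hasDerivAt_sin _).comp t h1
      have hc : HasDerivAt (fun t : ℝ => Real.cos (t * u)) (-Real.sin (t * u) * u) t :=
        (Real.hasDerivAt_cos _).comp t h1
      have hp : HasDerivAt (fun t : ℝ => 1 - t ^ 2) (-(2 * t)) t := by
        have := ((hasDerivAt_id t).pow 2).const_sub 1
        simpa using this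
      have ht2 : HasDerivAt (fun t : ℝ => 2 * t) 2 t := by
        simpa using (hasDerivAt_id t).const_mul 2
      have hall := (((hp.mul hs).div_const u).sub ((ht2.mul hc).div_const (u ^ 2))).add
        ((hs.const_mul 2).div_const (u ^ 3))
      have hall2 := hall.const_mul (1 / 4 : ℝ)
      refine hall2.congr_deriv ?_
      field_simp
      ring
    have hint : ContinuousOn (fun t : ℝ => (1 - t ^ 2) / 4 * Real.cos (t * u))
        (Set.uIcc (-1 : ℝ) 1) := by fun_prop
    unfold ww
    rw [intervalIntegral.integral_eq_sub_of_hasDerivAt hG hint.intervalIntegrable]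
    simp only [one_pow, neg_mul, one_mul, Real.sin_neg, Real.cos_neg]
    field_simp
    ring

section Main

variable {ι : Type} [Fintype ι] [DecidableEq ι]

/-- The apex kernel is positive semidefinite. -/
theorem P_psd (x : ι → ℝ) (hx : ∀ i, 0 < x i ∧ x i < Real.pi / 2) (α₀ : ℝ)
    (hα₀ : 0 < α₀ ∧ α₀ < Real.pi / 2) :
    PSDK (fun i j => (KK (x i) α₀ + KK (x j) α₀) / Real.sin (x i + x j)) := by
  refine ⟨fun i j => ?_, fun c => ?_⟩
  · show (KK (x i) α₀ + KK (x j) α₀) / Real.sin (x i + x j) =
      (KK (x j) α₀ + KK (x i) α₀) / Real.sin (x j + x i)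
    rw [add_comm (KK (x i) α₀), add_comm (x i)]
  · set A : ι → ℝ → ℝ := fun i t =>
      (1 - t ^ 2) / 4 * (Real.sin (x i + α₀) * Real.cos (t * (x i - α₀))) with hA
    have hAc : ∀ i, Continuous (A i) := by
      intro i
      simp only [hA]
      fun_prop
    have hKK : ∀ i, KK (x i) α₀ = ∫ t in (-1 : ℝ)..1, A i t := by
      intro i
      unfold KK ww
      rw [← intervalIntegral.integral_const_mul]
      apply intervalIntegral.integral_congr
      intro t _
      simp only [hA]
      ring
    have e : ∑ i, ∑ j, c i * c j * ((KK (x i) α₀ + KK (x j) α₀) / Real.sin (x i + x j)) =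
        ∫ t in (-1 : ℝ)..1, ∑ i, ∑ j, c i * c j * ((A i t + A j t) / Real.sin (x i + x j)) := by
      rw [intervalIntegral.integral_finset_sum]
      · apply Finset.sum_congr rfl
        intro i _
        rw [intervalIntegral.integral_finset_sum]
        · apply Finset.sum_congr rfl
          intro j _
          rw [intervalIntegral.integral_const_mul, intervalIntegral.integral_div,
            intervalIntegral.integral_add ((hAc i).intervalIntegrable _ _)
              ((hAc j).intervalIntegrable _ _), ← hKK, ← hKK]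
        · intro j _
          apply Continuous.intervalIntegrable
          have := hAc i
          have := hAc j
          fun_prop
      · intro i _
        apply Continuous.intervalIntegrable
        have := hAc i
        refine continuous_finset_sum _ fun j _ => ?_
        have := hAc j
        fun_prop
    rw [e]
    apply intervalIntegral.integral_nonneg (by norm_num)
    intro t ht
    by_cases hend : t = -1 ∨ t = 1
    · have hw : (1 - t ^ 2) / 4 = 0 := by
        rcases hend with rfl | rfl <;> norm_num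
      have : ∀ i, A i t = 0 := by
        intro i
        simp only [hA, hw, zero_mul]
      simp [this]
    · push Not at hend
      have ht' : -1 < t ∧ t < 1 :=
        ⟨lt_of_le_of_ne ht.1 (Ne.symm hend.1), lt_of_le_of_ne ht.2 hend.2⟩
      have hB := (Bt_psd x hx α₀ t hα₀ ht').2 c
      have hw : 0 ≤ (1 - t ^ 2) / 4 := by
        have : t ^ 2 ≤ 1 := by nlinarith [ht'.1, ht'.2]
        linarith
      have e2 : ∑ i, ∑ j, c i * c j * ((A i t + A j t) / Real.sin (x i + x j)) =
          (1 - t ^ 2) / 4 * ∑ i, ∑ j, c i * c j *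
            ((Real.sin (x i + α₀) * Real.cos (t * (x i - α₀)) +
              Real.sin (x j + α₀) * Real.cos (t * (x j - α₀))) / Real.sin (x i + x j)) := by
        rw [Finset.mul_sum]
        apply Finset.sum_congr rfl
        intro i _
        rw [Finset.mul_sum]
        apply Finset.sum_congr rfl
        intro j _
        simp only [hA]
        ring
      rw [e2]
      exact mul_nonneg hw hB

/-- **Lemma M**: positivity of the triple form. -/
theorem lemmaM (α : ι → ℝ) (hα : ∀ i, 0 < α i ∧ α i < Real.pi / 2) (X : ι → ι → ℝ)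
    (hX : PSDK X) :
    0 ≤ ∑ j, ∑ k, ∑ l, X j k * X k l * X l j *
      ((Real.sinc (α k - α l) - Real.cos (α k - α l)) /
        (Real.sin (α j + α k) * Real.sin (α j + α l))) := by
  have hpi := Real.pi_pos
  set s : ι → ι → ℝ := fun k l => Real.sin (α k + α l) with hs
  have hspos : ∀ k l, 0 < s k l := by
    intro k l
    apply Real.sin_pos_of_pos_of_lt_pi
    · linarith [(hα k).1, (hα l).1]
    · linarith [(hα k).2, (hα l).2]
  have hssym : ∀ k l, s k l = s l k := fun k l => by simp only [hs, add_comm]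
  set Q : ι → ι → ℝ := fun k l => X k l / s k l with hQ
  have hQsym : ∀ k l, Q k l = Q l k := fun k l => by
    simp only [hQ]
    rw [hX.1 k l, hssym k l]
  have hXQ : ∀ k l, X k l = s k l * Q k l := fun k l => by
    simp only [hQ]
    have := (hspos k l).ne'
    field_simp
  set u : ι → ι → ℝ := fun k l => α k - α l with hu
  set K : ι → ι → ℝ := fun k l => KK (α k) (α l) with hK
  have hKsym : ∀ k l, K k l = K l k := fun k l => KK_symm _ _
  have hKs : ∀ k l, K k l = s k l * ww (u k l) := fun _ _ => rfl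
  -- the term
  have hterm : ∀ j k l, X j k * X k l * X l j *
      ((Real.sinc (α k - α l) - Real.cos (α k - α l)) /
        (Real.sin (α j + α k) * Real.sin (α j + α l))) =
      K k l * u k l * (u j l + u k j) * (Q k l * Q l j * Q j k) := by
    intro j k l
    have e1 : u j l + u k j = u k l := by simp only [hu]; ring
    rw [e1, sinc_sub_cos, hKs, hXQ j k, hXQ k l, hXQ l j]
    have h1 : Real.sin (α j + α k) = s j k := rfl
    have h2 : Real.sin (α j + α l) = s l j := by
      simp only [hs]
      rw [add_comm]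
    rw [h1, h2]
    have h3 := (hspos j k).ne'
    have h4 := (hspos l j).ne'
    have h5 : α k - α l = u k l := rfl
    rw [h5]
    field_simp
  simp_rw [hterm]
  -- the two pieces
  set E : ι → ι → ι → ℝ := fun p a b => K a p * (u p a * u p b * (Q p a * Q p b * Q a b)) with hE
  have hsplit : ∑ j, ∑ k, ∑ l, K k l * u k l * (u j l + u k j) * (Q k l * Q l j * Q j k) =
      ∑ p, ∑ a, ∑ b, (E p a b + E p b a) := by
    have h1 : ∑ j, ∑ k, ∑ l, K k l * u k l * (u j l + u k j) * (Q k l * Q l j * Q j k) =
        ∑ j, ∑ k, ∑ l, E l k j + ∑ j, ∑ k, ∑ l, E k l j := by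
      rw [← Finset.sum_add_distrib]
      apply Finset.sum_congr rfl
      intro j _
      rw [← Finset.sum_add_distrib]
      apply Finset.sum_congr rfl
      intro k _
      rw [← Finset.sum_add_distrib]
      apply Finset.sum_congr rfl
      intro l _
      simp only [hE]
      have a1 : u l k = -u k l := by simp only [hu]; ring
      have a2 : u l j = -u j l := by simp only [hu]; ring
      rw [a1, a2, hQsym l k, hQsym k j, hKsym l k]
      ring
    have r1 : ∑ j, ∑ k, ∑ l, E l k j = ∑ p, ∑ a, ∑ b, E p a b := by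
      calc ∑ j, ∑ k, ∑ l, E l k j = ∑ k, ∑ j, ∑ l, E l k j := Finset.sum_comm
        _ = ∑ k, ∑ l, ∑ j, E l k j := by
            apply Finset.sum_congr rfl
            intro k _
            exact Finset.sum_comm
        _ = ∑ l, ∑ k, ∑ j, E l k j := Finset.sum_comm
    have r2 : ∑ j, ∑ k, ∑ l, E k l j = ∑ p, ∑ a, ∑ b, E p a b := by
      calc ∑ j, ∑ k, ∑ l, E k l j = ∑ k, ∑ j, ∑ l, E k l j := Finset.sum_comm
        _ = ∑ k, ∑ l, ∑ j, E k l j := by
            apply Finset.sum_congr rfl
            intro k _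
            exact Finset.sum_comm
    have r3 : ∑ p, ∑ a, ∑ b, E p b a = ∑ p, ∑ a, ∑ b, E p a b := by
      apply Finset.sum_congr rfl
      intro p _
      exact Finset.sum_comm
    rw [h1, r1, r2]
    have r4 : ∑ p, ∑ a, ∑ b, (E p a b + E p b a) =
        ∑ p, ∑ a, ∑ b, E p a b + ∑ p, ∑ a, ∑ b, E p b a := by
      rw [← Finset.sum_add_distrib]
      apply Finset.sum_congr rfl
      intro p _
      rw [← Finset.sum_add_distrib]
      apply Finset.sum_congr rfl
      intro a _
      rw [← Finset.sum_add_distrib]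
    rw [r4, r3]
  rw [hsplit]
  apply Finset.sum_nonneg
  intro p _
  have hM := (hX.schur (P_psd α hα (α p) (hα p))).2 (fun a => u p a * Q p a)
  have e : ∑ a, ∑ b, (E p a b + E p b a) =
      ∑ a, ∑ b, (u p a * Q p a) * (u p b * Q p b) *
        (X a b * ((KK (α a) (α p) + KK (α b) (α p)) / Real.sin (α a + α b))) := by
    apply Finset.sum_congr rfl
    intro a _
    apply Finset.sum_congr rfl
    intro b _
    simp only [hE]
    have h5 : X a b * ((K a p + K b p) / s a b) = Q a b * (K a p + K b p) := by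
      simp only [hQ]
      have := (hspos a b).ne'
      field_simp
    have h6 : X a b * ((KK (α a) (α p) + KK (α b) (α p)) / Real.sin (α a + α b)) =
        X a b * ((K a p + K b p) / s a b) := rfl
    rw [h6, h5, hQsym b a]
    ring
  rw [e]
  exact hM

end Main

end Vale.Agent.Lib.P371.Sharp
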